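import Vale.Agent.P073.H655.RowsM
import Vale.Agent.P073.H655.SameT
import Vale.Agent.P073.H739.Cells

/-!
# P073, row M2: covering by non-overlapping dyadic cubes
-/

namespace Vale.Agent.P073.H705

open MeasureTheory Set Filter Topology Metric
open Vale.Agent.P073.St (V)
open Vale.Agent.P073.SQ (cube)
open Vale.Agent.P073.H655 (ocube)
open Vale.Agent.P073.H739 (rad cen idx rad_pos mem_closedBall_idx idx_of_mem_ball half_idx)
open scoped ENNReal NNReal

/-- covers by sets of small diameter -/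
theorem exists_haus {s : ℝ} {A : Set V} (hA : μH[s] A < ⊤) {r ε : ℝ≥0∞} (hr : 0 < r)
    (hε : ε ≠ 0) : ∃ t : ℕ → Set V, A ⊆ ⋃ n, t n ∧ (∀ n, ediam (t n) ≤ r) ∧
      ∑' n, (⨆ _ : (t n).Nonempty, ediam (t n) ^ s) ≤ μH[s] A + ε := by
  have h : (⨅ (t : ℕ → Set V) (_ : A ⊆ ⋃ n, t n) (_ : ∀ n, ediam (t n) ≤ r),
      ∑' n, ⨆ _ : (t n).Nonempty, ediam (t n) ^ s) ≤ μH[s] A := by
    rw [Measure.hausdorffMeasure_apply]
    exact le_iSup₂ (f := fun (r : ℝ≥0∞) (_ : 0 < r) =>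
      ⨅ (t : ℕ → Set V) (_ : A ⊆ ⋃ n, t n) (_ : ∀ n, ediam (t n) ≤ r),
        ∑' n, ⨆ _ : (t n).Nonempty, ediam (t n) ^ s) r hr
  have h2 := lt_of_le_of_lt h (ENNReal.lt_add_right hA.ne hε)
  obtain ⟨t, h3⟩ := iInf_lt_iff.1 h2
  obtain ⟨ht, h4⟩ := iInf_lt_iff.1 h3
  obtain ⟨ht2, h5⟩ := iInf_lt_iff.1 h4
  exact ⟨t, ht, ht2, h5.le⟩

/-! ### maximal dyadic cells -/

theorem idx_anc {x y : V} {n n' : ℕ} (hn : n ≤ n') (h : idx 0 n' x = idx 0 n' y) :
    idx 0 n x = idx 0 n y := by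
  induction n', hn using Nat.le_induction with
  | base => exact h
  | succ k hk ih =>
    apply ih
    rw [← half_idx 0 x k, ← half_idx 0 y k, h]

/-- the maximal cells of a family -/
def Mx (G : Set (ℕ × (Fin 3 → ℤ))) : Set (ℕ × (Fin 3 → ℤ)) :=
  {a | a ∈ G ∧ ∃ x : V, idx 0 a.1 x = a.2 ∧ ∀ n < a.1, (n, idx 0 n x) ∉ G}

theorem mem_Mx {G : Set (ℕ × (Fin 3 → ℤ))} {x : V} {n : ℕ} (h : (n, idx 0 n x) ∈ G) :
    ∃ a ∈ Mx G, x ∈ closedBall (cen 0 a.1 a.2) (rad a.1) := by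
  classical
  have hex : ∃ n, (n, idx 0 n x) ∈ G := ⟨n, h⟩
  refine ⟨(Nat.find hex, idx 0 (Nat.find hex) x), ⟨Nat.find_spec hex, x, rfl, fun m hm => ?_⟩,
    mem_closedBall_idx 0 x _⟩
  exact Nat.find_min hex hm

theorem Mx_ball {G : Set (ℕ × (Fin 3 → ℤ))} {a b : ℕ × (Fin 3 → ℤ)} (ha : a ∈ Mx G)
    (hb : b ∈ Mx G) {z : V} (hza : z ∈ ball (cen 0 a.1 a.2) (rad a.1))
    (hzb : z ∈ ball (cen 0 b.1 b.2) (rad b.1)) : a = b := by
  have ea := idx_of_mem_ball hza
  have eb := idx_of_mem_ball hzb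
  have key : ∀ a b : ℕ × (Fin 3 → ℤ), a ∈ Mx G → b ∈ Mx G → idx 0 a.1 z = a.2 →
      idx 0 b.1 z = b.2 → ¬ a.1 < b.1 := by
    intro a b ha hb ea eb hab
    obtain ⟨-, x, hx, hmin⟩ := hb
    have h1 : idx 0 a.1 z = idx 0 a.1 x := idx_anc hab.le (eb.trans hx.symm)
    apply hmin a.1 hab
    rw [← h1, ea]
    exact ha.1
  have h1 : a.1 = b.1 := by
    rcases lt_trichotomy a.1 b.1 with h | h | h
    · exact absurd h (key a b ha hb ea eb)
    · exact h
    · exact absurd h (key b a hb ha eb ea)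
  refine Prod.ext h1 ?_
  rw [← ea, ← eb, h1]

theorem Mx_null {G : Set (ℕ × (Fin 3 → ℤ))} {a b : ℕ × (Fin 3 → ℤ)} (ha : a ∈ Mx G)
    (hb : b ∈ Mx G) (hab : a ≠ b) :
    volume (cube (cen 0 a.1 a.2) (rad a.1) ∩ cube (cen 0 b.1 b.2) (rad b.1)) = 0 := by
  refine measure_mono_null (t := (cube (cen 0 a.1 a.2) (rad a.1) \ ocube (cen 0 a.1 a.2) (rad a.1)) ∪
    (cube (cen 0 b.1 b.2) (rad b.1) \ ocube (cen 0 b.1 b.2) (rad b.1))) ?_
    (measure_union_null H655.volume_shell H655.volume_shell)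
  rintro z ⟨hz1, hz2⟩
  by_contra hcon
  simp only [mem_union, Set.mem_sdiff, not_or, not_and, not_not] at hcon
  have h1 := hcon.1 hz1
  have h2 := hcon.2 hz2
  rw [H655.ocube_eq (rad_pos _)] at h1 h2
  exact hab (Mx_ball ha hb h1 h2)

/-! ### layers -/

/-- the layers of `N` -/
def lay (N : Set V) : ℕ → Set V
  | 0 => {x | 1 < infEDist x Nᶜ}
  | (m + 1) => {x | (1 / 2) ^ (m + 1) < infEDist x Nᶜ ∧ infEDist x Nᶜ ≤ (1 / 2) ^ m}

theorem lay_lower {N : Set V} {m : ℕ} {x : V} (hx : x ∈ lay N m) :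
    (1 / 2) ^ m < infEDist x Nᶜ := by
  cases m with
  | zero =>
    have h : 1 < infEDist x Nᶜ := hx
    simpa using h
  | succ m => exact hx.1

theorem lay_upper {N : Set V} {m : ℕ} (hm : m ≠ 0) {x : V} (hx : x ∈ lay N m) :
    infEDist x Nᶜ ≤ (1 / 2) ^ (m - 1) := by
  cases m with
  | zero => exact absurd rfl hm
  | succ m => exact hx.2

theorem measurable_lay (N : Set V) (m : ℕ) : MeasurableSet (lay N m) := by
  have hc : Measurable fun x : V => infEDist x Nᶜ := continuous_infEDist.measurable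
  cases m with
  | zero => exact measurableSet_lt measurable_const hc
  | succ m =>
    exact (measurableSet_lt measurable_const hc).inter (measurableSet_le hc measurable_const)

theorem half_le_half {a b : ℕ} (h : a ≤ b) : ((1 / 2 : ℝ≥0∞)) ^ b ≤ (1 / 2) ^ a :=
  pow_le_pow_right_of_le_one' (by
    rw [one_div]
    exact ENNReal.inv_le_one.2 (by norm_num)) h

theorem pairwise_lay (N : Set V) : Pairwise (Function.onFun Disjoint (lay N)) := by
  have key : ∀ i j : ℕ, i < j → Disjoint (lay N i) (lay N j) := by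
    intro i j hij
    refine Set.disjoint_left.mpr fun x hi hj => ?_
    have h1 := lay_lower hi
    have h2 := lay_upper (by omega) hj
    have h3 := half_le_half (show i ≤ j - 1 by omega)
    exact absurd (h1.trans_le (h2.trans h3)) (lt_irrefl _)
  intro i j hij
  rcases lt_or_gt_of_ne hij with h | h
  · exact key i j h
  · exact (key j i h).symm

theorem sub_lay {N : Set V} (hN : IsOpen N) : N ⊆ ⋃ m, lay N m := by
  classical
  intro x hx
  have h0 : 0 < infEDist x Nᶜ := by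
    rw [infEDist_pos_iff_notMem_closure, hN.isClosed_compl.closure_eq]
    simpa using hx
  have hex : ∃ m : ℕ, ((1 / 2 : ℝ≥0∞)) ^ m < infEDist x Nᶜ := by
    have h1 : Tendsto (fun m : ℕ => ((1 / 2 : ℝ≥0∞)) ^ m) atTop (𝓝 0) :=
      ENNReal.tendsto_pow_atTop_nhds_zero_of_lt_one (by
        rw [one_div]
        exact ENNReal.inv_lt_one.2 (by norm_num))
    exact (h1.eventually (gt_mem_nhds h0)).exists
  refine mem_iUnion.2 ⟨Nat.find hex, ?_⟩
  have hs := Nat.find_spec hex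
  rcases Nat.eq_zero_or_pos (Nat.find hex) with h | h
  · rw [h] at hs ⊢
    show 1 < infEDist x Nᶜ
    simpa using hs
  · obtain ⟨b, hb⟩ := Nat.exists_eq_succ_of_ne_zero h.ne'
    have hmin := Nat.find_min hex (m := b) (by omega)
    rw [hb] at hs ⊢
    exact ⟨hs, not_lt.1 hmin⟩

theorem sum_lay {s : ℝ} (N K : Set V) : ∑' m, μH[s] (K ∩ lay N m) ≤ μH[s] K := by
  have h1 : ∀ m, μH[s] (K ∩ lay N m) = (μH[s].restrict K) (lay N m) := fun m => by
    rw [Measure.restrict_apply (measurable_lay N m), inter_comm]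
  simp only [h1]
  rw [← measure_iUnion (pairwise_lay N) (measurable_lay N)]
  exact (measure_mono (subset_univ _)).trans (Measure.restrict_apply_univ K).le

theorem rad_eq (j : ℕ) : rad j = (1 / 2) ^ (j + 1) := by
  unfold rad
  rw [one_div_pow]

/-- neighbouring cells -/
theorem idx_near {x y : V} {j : ℕ} (h : dist y x ≤ (1 / 2) ^ j) :
    ∃ e : Fin 3 → Fin 3, idx 0 j y = fun l => idx 0 j x l + ((e l : ℤ) - 1) := by
  have hp : (0 : ℝ) < 2 ^ j := by positivity
  have h2 : ((1 / 2 : ℝ)) ^ j * 2 ^ j = 1 := by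
    rw [← mul_pow]
    norm_num
  have h1 : ∀ l, |y l - x l| * 2 ^ j ≤ 1 := by
    intro l
    have h3 : |y l - x l| ≤ (1 / 2) ^ j := by
      have := dist_le_pi_dist y x l
      rw [Real.dist_eq] at this
      exact this.trans h
    calc |y l - x l| * 2 ^ j ≤ (1 / 2) ^ j * 2 ^ j := by gcongr
      _ = 1 := h2
  have h4 : ∀ l, 0 ≤ idx 0 j y l - idx 0 j x l + 1 ∧ idx 0 j y l - idx 0 j x l + 1 < 3 := by
    intro l
    have h5 := h1 l
    rw [← abs_of_pos hp, ← abs_mul, abs_le] at h5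
    have e1 : idx 0 j y l = ⌊y l * 2 ^ j⌋ := by
      unfold idx
      simp
    have e2 : idx 0 j x l = ⌊x l * 2 ^ j⌋ := by
      unfold idx
      simp
    rw [e1, e2]
    have h6 : y l * 2 ^ j ≤ x l * 2 ^ j + 1 := by linarith [h5.2]
    have h7 : x l * 2 ^ j ≤ y l * 2 ^ j + 1 := by linarith [h5.1]
    have h8 : ⌊y l * 2 ^ j⌋ ≤ ⌊x l * 2 ^ j⌋ + 1 := by
      rw [← Int.floor_add_one]
      exact Int.floor_le_floor h6
    have h9 : ⌊x l * 2 ^ j⌋ ≤ ⌊y l * 2 ^ j⌋ + 1 := by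
      rw [← Int.floor_add_one]
      exact Int.floor_le_floor h7
    constructor <;> omega
  refine ⟨fun l => ⟨(idx 0 j y l - idx 0 j x l + 1).toNat, ?_⟩, ?_⟩
  · have := h4 l
    omega
  · funext l
    have := h4 l
    simp only
    omega

/-- the cells near a point are in a small ball -/
theorem cell_near {x z : V} {j : ℕ} {e : Fin 3 → Fin 3}
    (hz : z ∈ cube (cen 0 j (fun l => idx 0 j x l + ((e l : ℤ) - 1))) (rad j)) :
    dist x z ≤ 4 * rad j := by
  have hr := rad_pos j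
  rw [dist_pi_le_iff (by positivity)]
  intro l
  rw [Real.dist_eq]
  have h1 := mem_closedBall_idx 0 x j
  rw [← H655.cube_eq hr] at h1
  have h2 : |x l - cen 0 j (idx 0 j x) l| ≤ rad j := h1 l
  have h3 : |z l - cen 0 j (fun l => idx 0 j x l + ((e l : ℤ) - 1)) l| ≤ rad j := hz l
  have h4 : cen 0 j (fun l => idx 0 j x l + ((e l : ℤ) - 1)) l - cen 0 j (idx 0 j x) l =
      2 * (((e l : ℕ) : ℝ) - 1) * rad j := by
    unfold cen
    push_cast
    ring
  have h5 : |((e l : ℕ) : ℝ) - 1| ≤ 1 := by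
    have h6 : ((e l : ℕ) : ℝ) ≤ 2 := by exact_mod_cast Nat.le_of_lt_succ (e l).2
    have h7 : (0 : ℝ) ≤ ((e l : ℕ) : ℝ) := by positivity
    rw [abs_le]
    constructor <;> linarith
  rw [abs_le] at h2 h3 h5 ⊢
  constructor <;> nlinarith [h2.1, h2.2, h3.1, h3.2, h5.1, h5.2]

/-- **Row M2** -/
theorem specCover : H655.SpecCover := by
  classical
  intro s K hs hK
  refine ⟨27 * (μH[s] K + 2), ENNReal.mul_ne_top (by norm_num)
    (ENNReal.add_ne_top.2 ⟨hK.ne, by norm_num⟩), fun N hN hKN => ?_⟩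
  obtain ⟨εm, hεm, hεsum⟩ := ENNReal.exists_pos_sum_of_countable (ε := 1) one_ne_zero ℕ
  obtain ⟨εn, hεn, hεnsum⟩ := ENNReal.exists_pos_sum_of_countable (ε := 1) one_ne_zero (ℕ × ℕ)
  have hfin : ∀ m, μH[s] (K ∩ lay N m) < ⊤ := fun m =>
    lt_of_le_of_lt (measure_mono inter_subset_left) hK
  have hr0 : ∀ m : ℕ, (0 : ℝ≥0∞) < (1 / 2) ^ (m + 3) := fun m => by
    refine pos_iff_ne_zero.2 (pow_ne_zero _ ?_)
    simp
  choose t htc htd hts using fun m => exists_haus (hfin m) (hr0 m) (ε := εm m)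
    (by exact_mod_cast (hεm m).ne')
  -- a point in each set of the cover
  have hx : ∀ m n, ∃ x : V, (t m n ∩ (K ∩ lay N m)).Nonempty → x ∈ t m n ∩ (K ∩ lay N m) := by
    intro m n
    by_cases h : (t m n ∩ (K ∩ lay N m)).Nonempty
    · exact ⟨h.some, fun _ => h.some_mem⟩
    · exact ⟨0, fun h' => absurd h' h⟩
  choose x hx using hx
  have hdfin : ∀ m n, ediam (t m n) ≠ ⊤ := fun m n =>
    ne_top_of_le_ne_top (ENNReal.pow_ne_top (by simp)) (htd m n)
  have hhalf : ∀ m : ℕ, ((1 / 2 : ℝ≥0∞) ^ m).toReal = (1 / 2) ^ m := fun m => by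
    rw [ENNReal.toReal_pow]
    norm_num
  have hdle : ∀ m n, (ediam (t m n)).toReal ≤ (1 / 2) ^ (m + 3) := fun m n => by
    rw [← hhalf]
    exact ENNReal.toReal_mono (ENNReal.pow_ne_top (by simp)) (htd m n)
  set δ : ℕ → ℕ → ℝ := fun m n => min ((1 / 2) ^ (m + 3)) ((εn (m, n) : ℝ) ^ (1 / s)) with hδ
  have hδ0 : ∀ m n, 0 < δ m n := fun m n =>
    lt_min (by positivity) (Real.rpow_pos_of_pos (by exact_mod_cast hεn (m, n)) _)
  have hδs : ∀ m n, δ m n ^ s ≤ εn (m, n) := fun m n => by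
    calc δ m n ^ s ≤ ((εn (m, n) : ℝ) ^ (1 / s)) ^ s :=
          Real.rpow_le_rpow (hδ0 m n).le (min_le_right _ _) hs.le
      _ = εn (m, n) := by
          rw [← Real.rpow_mul (NNReal.coe_nonneg _), one_div, inv_mul_cancel₀ hs.ne',
            Real.rpow_one]
  set d : ℕ → ℕ → ℝ := fun m n => max (ediam (t m n)).toReal (δ m n) with hd
  have hd0 : ∀ m n, 0 < d m n := fun m n => lt_max_of_lt_right (hδ0 m n)
  have hd1 : ∀ m n, d m n ≤ (1 / 2) ^ (m + 3) := fun m n => max_le (hdle m n) (min_le_left _ _)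
  have hd2 : ∀ m n, d m n ≤ 1 := fun m n =>
    (hd1 m n).trans (pow_le_one₀ (by norm_num) (by norm_num))
  choose j hj1 hj2 using fun m n => exists_nat_pow_near_of_lt_one (hd0 m n) (hd2 m n)
    (show (0 : ℝ) < 1 / 2 by norm_num) (show (1 / 2 : ℝ) < 1 by norm_num)
  -- the family of cells
  set Φ : (ℕ × ℕ) × (Fin 3 → Fin 3) → ℕ × (Fin 3 → ℤ) := fun i =>
    (j i.1.1 i.1.2, fun l => idx 0 (j i.1.1 i.1.2) (x i.1.1 i.1.2) l + ((i.2 l : ℤ) - 1)) with hΦ
  set good : ℕ × ℕ → Prop := fun i => (t i.1 i.2 ∩ (K ∩ lay N i.1)).Nonempty with hgood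
  set G : Set (ℕ × (Fin 3 → ℤ)) := {a | ∃ i, good i.1 ∧ a = Φ i} with hG
  refine ⟨Mx G, inferInstance, fun a => cen 0 a.1.1 a.1.2, fun a => rad a.1.1,
    fun a => rad_pos _, ?_, ?_, ?_, ?_⟩
  · -- the cells are in `N`
    rintro ⟨a, ha⟩ z hz
    obtain ⟨i, hi, rfl⟩ := ha.1
    have hz' := cell_near (x := x i.1.1 i.1.2) (e := i.2) hz
    have hxm := hx i.1.1 i.1.2 hi
    have h1 := lay_lower hxm.2.2
    by_contra hzN
    have h2 : infEDist (x i.1.1 i.1.2) Nᶜ ≤ edist (x i.1.1 i.1.2) z := infEDist_le_edist_of_mem hzN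
    have h3 : edist (x i.1.1 i.1.2) z ≤ (1 / 2) ^ i.1.1 := by
      rw [edist_dist]
      refine ENNReal.ofReal_le_of_le_toReal ?_
      rw [hhalf]
      refine hz'.trans ?_
      rw [rad_eq]
      have h4 := (hj1 i.1.1 i.1.2).le.trans (hd1 i.1.1 i.1.2)
      calc (4 : ℝ) * (1 / 2) ^ (j i.1.1 i.1.2 + 1) ≤ 4 * (1 / 2) ^ (i.1.1 + 3) := by gcongr
        _ = (1 / 2) * (1 / 2) ^ i.1.1 := by rw [pow_add]; ring
        _ ≤ (1 / 2) ^ i.1.1 := by
            have : (0 : ℝ) ≤ (1 / 2) ^ i.1.1 := by positivity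
            linarith
    exact absurd (h1.trans_le (h2.trans h3)) (lt_irrefl _)
  · -- they cover `K`
    intro y hy
    obtain ⟨m, hm⟩ := mem_iUnion.1 (sub_lay hN (hKN hy))
    obtain ⟨n, hn⟩ := mem_iUnion.1 (htc m ⟨hy, hm⟩)
    have hg : good (m, n) := ⟨y, hn, hy, hm⟩
    have hxm := hx m n hg
    have h1 : dist y (x m n) ≤ (1 / 2) ^ j m n := by
      refine le_trans ?_ ((le_max_left _ _).trans (hj2 m n))
      rw [dist_edist]
      exact ENNReal.toReal_mono (hdfin m n) (edist_le_ediam_of_mem hn hxm.1)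
    obtain ⟨e, he⟩ := idx_near h1
    obtain ⟨a, ha, hya⟩ := mem_Mx (G := G) (x := y) (n := j m n) ⟨((m, n), e), hg, by
      rw [he]⟩
    refine mem_iUnion.2 ⟨⟨a, ha⟩, ?_⟩
    rw [H655.cube_eq (rad_pos _)]
    exact hya
  · -- they do not overlap
    rintro ⟨a, ha⟩ ⟨b, hb⟩ hab
    exact Mx_null ha hb fun h => hab (Subtype.ext h)
  · -- the sum
    have hw : ∀ a : Mx G, ∃ i, good i.1 ∧ a.1 = Φ i := fun a => a.2.1
    choose I hI1 hI2 using hw
    have hinj : Function.Injective I := by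
      intro a b hab
      apply Subtype.ext
      rw [hI2 a, hI2 b, hab]
    set w : ℕ × ℕ → ℝ≥0∞ := fun i => if good i then ENNReal.ofReal (rad (j i.1 i.2) ^ s) else 0
      with hwdef
    have h1 : ∀ a : Mx G, ENNReal.ofReal (rad a.1.1 ^ s) = (fun i : (ℕ × ℕ) × (Fin 3 → Fin 3) =>
        w i.1) (I a) := by
      intro a
      simp only [hwdef, if_pos (hI1 a)]
      rw [hI2 a]
    have h2 : ∀ p : ℕ × ℕ, w p ≤ (⨆ _ : (t p.1 p.2).Nonempty, ediam (t p.1 p.2) ^ s) + εn p := by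
      rintro ⟨m, n⟩
      simp only [hwdef]
      by_cases hg : good (m, n)
      · rw [if_pos hg]
        have hne : (t m n).Nonempty := hg.mono inter_subset_left
        rw [iSup_pos hne]
        have h3 : rad (j m n) ^ s ≤ (ediam (t m n)).toReal ^ s + δ m n ^ s := by
          have h4 : rad (j m n) ^ s ≤ d m n ^ s := by
            refine Real.rpow_le_rpow (rad_pos _).le ?_ hs.le
            rw [rad_eq]
            exact (hj1 m n).le
          refine h4.trans ?_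
          have h5 : 0 ≤ (ediam (t m n)).toReal ^ s := Real.rpow_nonneg ENNReal.toReal_nonneg _
          have h6 : 0 ≤ δ m n ^ s := Real.rpow_nonneg (hδ0 m n).le _
          rcases max_choice (ediam (t m n)).toReal (δ m n) with h | h
          · simp only [hd, h]
            linarith
          · simp only [hd, h]
            linarith
        refine (ENNReal.ofReal_le_ofReal h3).trans ?_
        refine ENNReal.ofReal_add_le.trans (add_le_add ?_ ?_)
        · rw [← ENNReal.ofReal_rpow_of_nonneg ENNReal.toReal_nonneg hs.le,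
            ENNReal.ofReal_toReal (hdfin m n)]
        · refine (ENNReal.ofReal_le_ofReal (hδs m n)).trans ?_
          rw [ENNReal.ofReal_coe_nnreal]
      · rw [if_neg hg]
        exact zero_le
    calc ∑' a : Mx G, ENNReal.ofReal (rad a.1.1 ^ s)
        = ∑' a : Mx G, (fun i : (ℕ × ℕ) × (Fin 3 → Fin 3) => w i.1) (I a) := tsum_congr h1
      _ ≤ ∑' i : (ℕ × ℕ) × (Fin 3 → Fin 3), w i.1 :=
          ENNReal.tsum_comp_le_tsum_of_injective hinj _
      _ = ∑' p : ℕ × ℕ, ∑' _e : Fin 3 → Fin 3, w p := ENNReal.tsum_prod (f := fun p _ => w p)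
      _ = ∑' p : ℕ × ℕ, 27 * w p := by
          refine tsum_congr fun p => ?_
          rw [tsum_fintype, Finset.sum_const, Finset.card_univ, Fintype.card_fun, Fintype.card_fin,
            nsmul_eq_mul]
          norm_num
      _ = 27 * ∑' p : ℕ × ℕ, w p := ENNReal.tsum_mul_left
      _ ≤ 27 * (μH[s] K + 2) := by
          gcongr
          calc ∑' p : ℕ × ℕ, w p
              ≤ ∑' p : ℕ × ℕ, ((⨆ _ : (t p.1 p.2).Nonempty, ediam (t p.1 p.2) ^ s) + εn p) :=
                ENNReal.tsum_le_tsum h2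
            _ = (∑' p : ℕ × ℕ, (⨆ _ : (t p.1 p.2).Nonempty, ediam (t p.1 p.2) ^ s)) +
                ∑' p, (εn p : ℝ≥0∞) := ENNReal.tsum_add
            _ ≤ (μH[s] K + 1) + 1 := by
                refine add_le_add ?_ hεnsum.le
                rw [ENNReal.tsum_prod (f := fun m n =>
                  (⨆ _ : (t m n).Nonempty, ediam (t m n) ^ s))]
                refine (ENNReal.tsum_le_tsum hts).trans ?_
                rw [ENNReal.tsum_add]
                exact add_le_add (sum_lay N K) hεsum.le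
            _ = μH[s] K + 2 := by
                rw [add_assoc]
                norm_num

end Vale.Agent.P073.H705
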