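import Vale.Agent.P073.Bdl.B2
import Vale.Agent.P073.H880.Rows2

/-!
# P073: a local homeomorphism close to a homeomorphism of open sets (row E of helper880)
-/

namespace Vale.Agent.P073.H705

open Set Filter Topology Metric
open Vale.Agent.P073.St (V)

/-- `bijective_of_near_id` without connectedness -/
theorem bijective_of_near_id' {Λ : Set V} (hΛo : IsOpen Λ) (hΛn : Λᶜ.Nonempty) (p : Λ → Λ)
    (hp : IsLocalHomeomorph p)
    (hnear : ∀ y : Λ, ‖(p y : V) - y‖ ≤ (1 / 4) * min (infDist (y : V) Λᶜ) 1) :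
    Function.Bijective p := by
  -- the component of a point
  have hpos : ∀ y ∈ Λ, 0 < infDist y Λᶜ := fun y hy =>
    (hΛo.isClosed_compl.notMem_iff_infDist_pos hΛn).1 (by simpa using hy)
  set cc : V → Set V := fun y => connectedComponentIn Λ y with hcc
  have hball : ∀ y ∈ Λ, ball y (infDist y Λᶜ) ⊆ cc y := by
    intro y hy
    refine (isPreconnected_ball).subset_connectedComponentIn (mem_ball_self (hpos y hy)) ?_
    exact ball_infDist_compl_subset
  have hpc : ∀ y : Λ, (p y : V) ∈ cc y := by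
    intro y
    refine hball y y.2 ?_
    rw [mem_ball, dist_eq_norm]
    have h1 := hnear y
    have h2 : min (infDist (y : V) Λᶜ) 1 ≤ infDist (y : V) Λᶜ := min_le_left _ _
    have := hpos y y.2
    linarith
  have hco : ∀ y, IsOpen (cc y) := fun y => hΛo.connectedComponentIn
  have hcs : ∀ y, cc y ⊆ Λ := fun y => connectedComponentIn_subset _ _
  have hceq : ∀ {y z : V}, z ∈ cc y → cc z = cc y := fun h =>
    (connectedComponentIn_eq h).symm
  -- restriction to one component
  have key : ∀ a : Λ, Function.Bijective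
      (fun y : cc a => (⟨p ⟨y, hcs a y.2⟩, by
        have h1 := hpc ⟨y, hcs a y.2⟩
        rwa [hceq y.2] at h1⟩ : cc a)) := by
    intro a
    have hn : (cc a)ᶜ.Nonempty := hΛn.mono (compl_subset_compl.2 (hcs a))
    refine bijective_of_near_id (hco a) isPreconnected_connectedComponentIn hn _ ?_ ?_
    · have h1 : IsLocalHomeomorph ((↑) : cc a → V) :=
        (hco a).isOpenEmbedding_subtypeVal.isLocalHomeomorph
      have h2 : IsLocalHomeomorph ((↑) : Λ → V) := hΛo.isOpenEmbedding_subtypeVal.isLocalHomeomorph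
      have h3 : IsLocalHomeomorph (fun y : cc a => (⟨y, hcs a y.2⟩ : Λ)) := by
        refine IsLocalHomeomorph.of_comp (f := fun y : cc a => (⟨y, hcs a y.2⟩ : Λ))
          (g := ((↑) : Λ → V)) ?_ h2 ?_
        · exact h1
        · exact Continuous.subtype_mk continuous_subtype_val _
      have h4 : IsLocalHomeomorph (((↑) : Λ → V) ∘ p ∘ fun y : cc a => (⟨y, hcs a y.2⟩ : Λ)) :=
        h2.comp (hp.comp h3)
      refine IsLocalHomeomorph.of_comp (g := ((↑) : cc a → V)) h4 h1 ?_
      exact Continuous.subtype_mk h4.continuous _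
    · intro y
      have h1 := hnear ⟨y, hcs a y.2⟩
      refine h1.trans ?_
      have hle : infDist (y : V) Λᶜ ≤ infDist (y : V) (cc a)ᶜ := by
        refine (le_infDist hn).2 fun z hz => ?_
        by_contra hcon
        have h2 : z ∈ ball (y : V) (infDist (y : V) Λᶜ) := by
          rw [mem_ball, dist_comm]; exact not_le.1 hcon
        have h3 := hball y (hcs a y.2) h2
        rw [hceq y.2] at h3
        exact hz h3
      show (1 / 4) * min (infDist (y : V) Λᶜ) 1 ≤ _
      gcongr
  constructor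
  · intro y z hyz
    have h1 : cc (y : V) = cc (z : V) := by
      have e1 := hceq (hpc y)
      have e2 := hceq (hpc z)
      rw [← e1, hyz, e2]
    have hzy : (z : V) ∈ cc (y : V) := by
      rw [h1]; exact mem_connectedComponentIn z.2
    have h0 : (p y : V) = p z := congrArg Subtype.val hyz
    have h2 := (key y).1 (a₁ := ⟨y, mem_connectedComponentIn y.2⟩) (a₂ := ⟨z, hzy⟩)
      (Subtype.ext h0)
    have h3 : (y : V) = z := congrArg (fun w : cc (y : V) => (w : V)) h2
    exact Subtype.ext h3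
  · intro z
    obtain ⟨y, hy⟩ := (key z).2 ⟨z, mem_connectedComponentIn z.2⟩
    have h0 : (p ⟨y, hcs z y.2⟩ : V) = z := congrArg (fun w : cc (z : V) => (w : V)) hy
    exact ⟨⟨y, hcs z y.2⟩, Subtype.ext h0⟩

/-- **Row E.** -/
theorem specBij : H880.SpecBij := by
  rintro Ω Λ f g hΩ hΛ hΛn ⟨h, ⟨hfh, hhf⟩, hfc, hhc⟩ hloc hgf
  have hhΩ : ∀ y ∈ Λ, h y ∈ Ω := fun y hy => (hhf y hy).1
  have hgc : ContinuousOn g Ω := hloc.continuousOn
  have hnear : ∀ y ∈ Λ, ‖g (h y) - y‖ ≤ (1 / 4) * min (infDist y Λᶜ) 1 := by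
    intro y hy
    have := hgf (h y) (hhΩ y hy)
    rwa [(hhf y hy).2] at this
  have hmaps : ∀ y ∈ Λ, g (h y) ∈ Λ := by
    intro y hy
    have hpos : 0 < infDist y Λᶜ :=
      (hΛ.isClosed_compl.notMem_iff_infDist_pos hΛn).1 (by simpa using hy)
    have h1 := hnear y hy
    have h2 : min (infDist y Λᶜ) 1 ≤ infDist y Λᶜ := min_le_left _ _
    apply ball_infDist_compl_subset (x := y)
    rw [mem_ball, dist_eq_norm]
    linarith
  let p : Λ → Λ := fun y => ⟨g (h y), hmaps y y.2⟩
  have hpcont : Continuous p := by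
    apply Continuous.subtype_mk
    have h1 : Continuous fun y : Λ => h y := hhc.domRestrict
    exact hgc.comp_continuous h1 fun y => hhΩ y y.2
  let e : Λ ≃ₜ Ω :=
    { toFun := fun y => ⟨h y, hhΩ y y.2⟩
      invFun := fun x => ⟨f x, (hfh x x.2).1⟩
      left_inv := fun y => Subtype.ext (hhf y y.2).2
      right_inv := fun x => Subtype.ext (hfh x x.2).2
      continuous_toFun := by
        apply Continuous.subtype_mk
        exact hhc.domRestrict
      continuous_invFun := by
        apply Continuous.subtype_mk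
        exact hfc.domRestrict }
  have hploc : IsLocalHomeomorph p := by
    have h1 : IsLocalHomeomorph ((↑) : Λ → V) := hΛ.isOpenEmbedding_subtypeVal.isLocalHomeomorph
    have h2 : IsLocalHomeomorph ((↑) : Ω → V) := hΩ.isOpenEmbedding_subtypeVal.isLocalHomeomorph
    have h3 : IsLocalHomeomorph (g ∘ ((↑) : Ω → V)) := by
      rw [isLocalHomeomorph_iff_isLocalHomeomorphOn_univ]
      exact hloc.comp h2.isLocalHomeomorphOn (fun x _ => x.2)
    have h4 : IsLocalHomeomorph ((g ∘ ((↑) : Ω → V)) ∘ e) := h3.comp e.isLocalHomeomorph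
    exact IsLocalHomeomorph.of_comp (f := p) (g := ((↑) : Λ → V)) h4 h1 hpcont
  have hbij := bijective_of_near_id' hΛ hΛn p hploc fun y => hnear y y.2
  have hbijOn : BijOn g Ω Λ := by
    refine ⟨?_, ?_, ?_⟩
    · intro x hx
      have := hmaps (f x) (hfh x hx).1
      rwa [(hfh x hx).2] at this
    · intro x hx x' hx' hxx
      have : p ⟨f x, (hfh x hx).1⟩ = p ⟨f x', (hfh x' hx').1⟩ := by
        apply Subtype.ext
        simp only [p]
        rw [(hfh x hx).2, (hfh x' hx').2, hxx]
      have h2 := congrArg Subtype.val (hbij.1 this)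
      have h3 : f x = f x' := h2
      rw [← (hfh x hx).2, h3, (hfh x' hx').2]
    · intro w hw
      obtain ⟨y, hy⟩ := hbij.2 ⟨w, hw⟩
      exact ⟨h y, hhΩ y y.2, congrArg Subtype.val hy⟩
  have hinvOn : InvOn (Function.invFunOn g Ω) g Ω Λ := hbijOn.invOn_invFunOn
  have hmapsI : MapsTo (Function.invFunOn g Ω) Λ Ω := hbijOn.surjOn.mapsTo_invFunOn
  refine ⟨Function.invFunOn g Ω, ⟨fun x hx => ⟨hbijOn.mapsTo hx, hinvOn.1 hx⟩,
    fun y hy => ⟨hmapsI hy, hinvOn.2 hy⟩⟩, hgc, ?_⟩
  intro w hw
  apply ContinuousAt.continuousWithinAt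
  obtain ⟨x, hx, rfl⟩ := hbijOn.surjOn hw
  obtain ⟨e', hxe, he⟩ := hloc x hx
  have hgx : g x ∈ e'.target := by
    rw [he]; exact e'.map_source hxe
  have hsx : e'.symm (g x) = x := by
    rw [he]; exact e'.left_inv hxe
  have hcont : ContinuousAt e'.symm (g x) := e'.continuousAt_symm hgx
  refine hcont.congr ?_
  have hpre : ∀ᶠ z in 𝓝 (g x), e'.symm z ∈ Ω := by
    refine hcont.eventually_mem ?_
    rw [hsx]
    exact hΩ.mem_nhds hx
  filter_upwards [e'.open_target.mem_nhds hgx, hΛ.mem_nhds hw, hpre] with z hz hzΛ hzs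
  have hgz : g (e'.symm z) = z := by rw [he]; exact e'.right_inv hz
  have hgz' : g (Function.invFunOn g Ω z) = z := hinvOn.2 hzΛ
  exact hbijOn.injOn hzs (hmapsI hzΛ) (hgz.trans hgz'.symm)

end Vale.Agent.P073.H705
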