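import Vale.Agent.P073.H705.Sqz

/-!
# P073: the squeezing diffeomorphisms of a cube (row S of helper655), assembly
-/

namespace Vale.Agent.P073.H705

open MeasureTheory Set Filter Topology Metric
open Vale.Agent.P073.St (V)
open Vale.Agent.P073.SQ (ev SuppDiffeo)
open Vale.Agent.P073.H655 (ocube)
open scoped ContDiff ENNReal

/-- one shear -/
structure Pk (i j k : Fin 3) (c : V) (R1 R2 R3 δ B ε : ℝ) (σ χ : ℝ → ℝ) : Prop where
  hji : j ≠ i
  hki : k ≠ i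
  all : ∀ l, l = i ∨ l = j ∨ l = k
  ε0 : 0 < ε
  ε1 : ε ≤ 1
  δ1 : δ ≤ 1
  δB : 2 * (δ * B) ≤ 1
  R13 : R1 ≤ R3
  χs : ContDiff ℝ ∞ χ
  χ0 : ∀ t, 0 ≤ χ t
  χ1 : ∀ t, χ t ≤ 1
  χB : ∀ t, |deriv χ t| ≤ B
  χR : ∀ t, |t| < R2 → χ t = 1
  χz : ∀ t, R3 ≤ |t| → χ t = 0
  σs : ContDiff ℝ ∞ σ
  σz : ∀ t, t ∉ Ioo (c i - R1) (c i + R1) → σ t = 0
  σδ : ∀ t, |σ t| ≤ δ
  σlo : ∀ t, ε - 1 ≤ deriv σ t
  σhi : ∀ t, deriv σ t ≤ δ

namespace Pk

variable {i j k : Fin 3} {c : V} {R1 R2 R3 δ B ε : ℝ} {σ χ : ℝ → ℝ}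

theorem fd (h : Pk i j k c R1 R2 R3 δ B ε σ χ) (y : V) :
    fderiv ℝ (shear i (gg i j k σ χ c)) y =
      ContinuousLinearMap.id ℝ V + (gg' i j k σ χ c y).smulRight (ev i) :=
  (hasFDerivAt_shear i (hasFDerivAt_gg i j k h.σs h.χs c y)).fderiv

theorem supp (h : Pk i j k c R1 R2 R3 δ B ε σ χ) :
    SuppDiffeo {y : V | ∀ l, |y l - c l| ≤ R3} (shear i (gg i j k σ χ c)) := by
  have hK : IsCompact {y : V | ∀ l, |y l - c l| ≤ R3} := by
    have : {y : V | ∀ l, |y l - c l| ≤ R3} = Set.pi univ fun l => closedBall (c l) R3 := by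
      ext y
      simp [Real.dist_eq]
    rw [this]
    exact isCompact_univ_pi fun l => isCompact_closedBall _ _
  refine suppDiffeo_shear hK i (contDiff_gg i j k h.σs h.χs c) ?_ ?_
  · intro y hy
    simp only [mem_ofPred_eq, not_forall, not_le] at hy
    obtain ⟨l, hl⟩ := hy
    unfold gg
    rcases h.all l with rfl | rfl | rfl
    · rw [h.σz, zero_mul]
      intro hm
      have : |y l - c l| ≤ R1 := abs_le.2 ⟨by linarith [hm.1], by linarith [hm.2]⟩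
      linarith [h.R13]
    · rw [h.χz _ hl.le]; ring
    · rw [h.χz _ hl.le]; ring
  · intro y
    rw [(hasFDerivAt_gg i j k h.σs h.χs c y).fderiv, gg'_ev h.hji h.hki]
    have a1 := h.χ0 (y j - c j)
    have a2 := h.χ0 (y k - c k)
    have a3 := h.χ1 (y j - c j)
    have a4 := h.χ1 (y k - c k)
    have a5 : 0 ≤ χ (y j - c j) * χ (y k - c k) := mul_nonneg a1 a2
    have a6 : χ (y j - c j) * χ (y k - c k) ≤ 1 := mul_le_one₀ a3 a2 a4
    have a7 := h.σlo (y i)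
    have a8 := h.ε0
    have a9 := h.ε1
    nlinarith

theorem disp (h : Pk i j k c R1 R2 R3 δ B ε σ χ) (y : V) :
    ‖shear i (gg i j k σ χ c) y - y‖ ≤ δ := by
  rw [norm_shear_sub]
  exact abs_gg_le h.χ0 h.χ1 h.σδ y

theorem norm_smulRight_ev (g' : V →L[ℝ] ℝ) (i : Fin 3) : ‖g'.smulRight (ev i)‖ = ‖g'‖ := by
  rw [ContinuousLinearMap.norm_smulRight_apply, norm_ev, mul_one]

theorem fd_le (h : Pk i j k c R1 R2 R3 δ B ε σ χ) (y : V) :
    ‖fderiv ℝ (shear i (gg i j k σ χ c)) y‖ ≤ 3 := by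
  rw [h.fd]
  have h1 := norm_gg'_le (i := i) (j := j) (k := k) (c := c) h.χ0 h.χ1 h.χB h.σδ y
  have h2 : |deriv σ (y i)| ≤ 1 := by
    rw [abs_le]
    have := h.σlo (y i)
    have := h.σhi (y i)
    have := h.ε0
    have := h.δ1
    constructor <;> linarith
  calc ‖ContinuousLinearMap.id ℝ V + (gg' i j k σ χ c y).smulRight (ev i)‖
      ≤ ‖ContinuousLinearMap.id ℝ V‖ + ‖(gg' i j k σ χ c y).smulRight (ev i)‖ := norm_add_le _ _
    _ ≤ 1 + (2 * (δ * B) + |deriv σ (y i)|) := by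
        rw [norm_smulRight_ev]
        exact add_le_add ContinuousLinearMap.norm_id_le h1
    _ ≤ 3 := by linarith [h.δB]

theorem fd_sub (h : Pk i j k c R1 R2 R3 δ B ε σ χ) {y : V} (hy : |deriv σ (y i)| ≤ δ) :
    ‖fderiv ℝ (shear i (gg i j k σ χ c)) y - ContinuousLinearMap.id ℝ V‖ ≤
      2 * (δ * B) + δ := by
  rw [h.fd, add_sub_cancel_left, norm_smulRight_ev]
  exact (norm_gg'_le h.χ0 h.χ1 h.χB h.σδ y).trans (by linarith)

theorem fd_eq (h : Pk i j k c R1 R2 R3 δ B ε σ χ) {y : V} (hj : |y j - c j| < R2)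
    (hk : |y k - c k| < R2) (hi : deriv σ (y i) = ε - 1) :
    fderiv ℝ (shear i (gg i j k σ χ c)) y =
      ContinuousLinearMap.id ℝ V +
        ((ε - 1) • (ContinuousLinearMap.proj i : V →L[ℝ] ℝ)).smulRight (ev i) := by
  rw [h.fd, gg'_eq h.χR hj hk hi]

end Pk

theorem comp3_sub {A0 A1 A2 : V →L[ℝ] V} {τ : ℝ} (hτ : τ ≤ 1)
    (h0 : ‖A0 - ContinuousLinearMap.id ℝ V‖ ≤ τ) (h1 : ‖A1 - ContinuousLinearMap.id ℝ V‖ ≤ τ)
    (h2 : ‖A2 - ContinuousLinearMap.id ℝ V‖ ≤ τ) :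
    ‖A2.comp (A1.comp A0) - ContinuousLinearMap.id ℝ V‖ ≤ 7 * τ := by
  have hτ0 : 0 ≤ τ := (norm_nonneg _).trans h0
  have e0 : ‖A0‖ ≤ 2 := by
    calc ‖A0‖ = ‖(A0 - ContinuousLinearMap.id ℝ V) + ContinuousLinearMap.id ℝ V‖ := by
          rw [sub_add_cancel]
      _ ≤ τ + 1 := (norm_add_le _ _).trans (add_le_add h0 ContinuousLinearMap.norm_id_le)
      _ ≤ 2 := by linarith
  have e1 : ‖A1‖ ≤ 2 := by
    calc ‖A1‖ = ‖(A1 - ContinuousLinearMap.id ℝ V) + ContinuousLinearMap.id ℝ V‖ := by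
          rw [sub_add_cancel]
      _ ≤ τ + 1 := (norm_add_le _ _).trans (add_le_add h1 ContinuousLinearMap.norm_id_le)
      _ ≤ 2 := by linarith
  have hdec : A2.comp (A1.comp A0) - ContinuousLinearMap.id ℝ V =
      (A2 - ContinuousLinearMap.id ℝ V).comp (A1.comp A0) +
        (A1 - ContinuousLinearMap.id ℝ V).comp A0 + (A0 - ContinuousLinearMap.id ℝ V) := by
    ext v l
    simp
  rw [hdec]
  calc _ ≤ ‖(A2 - ContinuousLinearMap.id ℝ V).comp (A1.comp A0)‖ +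
        ‖(A1 - ContinuousLinearMap.id ℝ V).comp A0‖ + ‖A0 - ContinuousLinearMap.id ℝ V‖ :=
        (norm_add_le _ _).trans (add_le_add (norm_add_le _ _) le_rfl)
    _ ≤ τ * (2 * 2) + τ * 2 + τ := by
        refine add_le_add (add_le_add ?_ ?_) h0
        · refine (ContinuousLinearMap.opNorm_comp_le _ _).trans ?_
          refine mul_le_mul h2 ?_ (norm_nonneg _) hτ0
          exact (ContinuousLinearMap.opNorm_comp_le _ _).trans
            (mul_le_mul e1 e0 (norm_nonneg _) (by norm_num))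
        · exact (ContinuousLinearMap.opNorm_comp_le _ _).trans
            (mul_le_mul h1 e0 (norm_nonneg _) hτ0)
    _ = 7 * τ := by ring

theorem exists_radius {c : V} {ρ : ℝ} {N : Set V} (hρ : 0 < ρ) (hN : IsCompact N)
    (hNc : N ⊆ ocube c ρ) : ∃ r, 0 ≤ r ∧ r < ρ ∧ ∀ y ∈ N, ∀ l, |y l - c l| ≤ r := by
  rcases N.eq_empty_or_nonempty with rfl | hne
  · exact ⟨0, le_rfl, hρ, fun y hy => absurd hy (notMem_empty y)⟩
  · obtain ⟨z, hz, hmax⟩ := hN.exists_isMaxOn (f := fun y : V => ‖y - c‖) hne (by fun_prop)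
    refine ⟨‖z - c‖, norm_nonneg _, ?_, ?_⟩
    · exact (pi_norm_lt_iff hρ).2 fun l => hNc hz l
    · intro y hy l
      exact (norm_le_pi_norm (y - c) l).trans (hmax hy)

theorem exists_chi {R2 R3 : ℝ} (h2 : 0 < R2) (h23 : R2 < R3) :
    ∃ (χ : ℝ → ℝ) (B : ℝ), 0 ≤ B ∧ ContDiff ℝ ∞ χ ∧ (∀ t, 0 ≤ χ t) ∧ (∀ t, χ t ≤ 1) ∧
      (∀ t, |deriv χ t| ≤ B) ∧ (∀ t, |t| < R2 → χ t = 1) ∧ (∀ t, R3 ≤ |t| → χ t = 0) := by
  let f : ContDiffBump (0 : ℝ) := ⟨R2, R3, h2, h23⟩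
  have hf : ContDiff ℝ ∞ f := f.contDiff
  obtain ⟨B, hB⟩ := (hf.continuous_deriv (by simp)).bounded_above_of_compact_support
    (f.hasCompactSupport.deriv)
  refine ⟨f, B, (norm_nonneg _).trans (hB 0), hf, fun t => f.nonneg, fun t => f.le_one, hB,
    ?_, ?_⟩
  · intro t ht
    refine f.one_of_mem_closedBall ?_
    rw [mem_closedBall, dist_zero_right]
    exact ht.le
  · intro t ht
    refine f.zero_of_le_dist ?_
    rw [dist_zero_right]
    exact ht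

/-- **Row S.** -/
theorem specSqz : H655.SpecSqz := by
  refine ⟨27, by norm_num, ?_⟩
  intro c ρ N κ hρ hN hNc hN0 hκ
  obtain ⟨r, hr0, hrρ, hNr⟩ := exists_radius hρ hN hNc
  obtain ⟨R1, R2, R3, h01, h12, h23, h3, hr1⟩ : ∃ R1 R2 R3 : ℝ, 0 < R1 ∧ R1 < R2 ∧ R2 < R3 ∧
      R3 < ρ ∧ r < R1 :=
    ⟨r + (ρ - r) / 4, r + (ρ - r) / 2, r + 3 * (ρ - r) / 4, by linarith, by linarith,
      by linarith, by linarith, by linarith⟩
  obtain ⟨χ, B, hB0, hχs, hχ0, hχ1, hχB, hχR, hχz⟩ := exists_chi (h01.trans h12) h23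
  set τ := min κ 1 / 7 with hτ
  have hτ0 : 0 < τ := by
    have : 0 < min κ 1 := lt_min hκ one_pos
    positivity
  have hτκ : 7 * τ ≤ κ := by
    have := min_le_left κ 1
    rw [hτ]; linarith
  have hτ1 : 7 * τ ≤ 1 := by
    have := min_le_right κ 1
    rw [hτ]; linarith
  set δ := min (R2 - R1) (τ / (2 * B + 1)) with hδ
  have hδ0 : 0 < δ := lt_min (by linarith) (by positivity)
  have hδR : δ ≤ R2 - R1 := min_le_left _ _
  have hδB : 2 * (δ * B) + δ ≤ τ := by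
    have h1 : δ ≤ τ / (2 * B + 1) := min_le_right _ _
    rw [le_div_iff₀ (by positivity)] at h1
    linarith
  have hδB' : 0 ≤ δ * B := mul_nonneg hδ0.le hB0
  have hA : ∀ l : Fin 3, IsCompact ((fun y : V => y l) '' N) := fun l =>
    hN.image (continuous_apply l)
  have hAR : ∀ l : Fin 3, (fun y : V => y l) '' N ⊆ Ioo (c l - R1) (c l + R1) := by
    rintro l _ ⟨y, hy, rfl⟩
    have := abs_le.1 (hNr y hy l)
    exact ⟨by simp only; linarith [this.1], by simp only; linarith [this.2]⟩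
  have hsq := fun l : Fin 3 => squeeze1 (a := c l - R1) (b := c l + R1) (by linarith) (hA l)
    (hAR l) (hN0 l) hκ hδ0
  choose U hUo hAU hUR hUκ hU using hsq
  refine ⟨{y | ∀ l, y l ∈ U l}, {y | ∀ l, |y l - c l| ≤ R3}, ?_, ?_, ?_, ?_, ?_, ?_, ?_⟩
  · have : {y : V | ∀ l, y l ∈ U l} = ⋂ l, (fun y : V => y l) ⁻¹' U l := by
      ext y; simp
    rw [this]
    exact isOpen_iInter_of_finite fun l => (hUo l).preimage (continuous_apply l)
  · exact fun y hy l => hAU l ⟨y, hy, rfl⟩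
  · intro y hy l
    have := hUR l (hy l)
    refine abs_lt.2 ⟨?_, ?_⟩
    · linarith [this.1]
    · linarith [this.2]
  · intro y hy l
    obtain ⟨_, ⟨z, hz, rfl⟩, h⟩ := hUκ l (y l) (hy l)
    exact ⟨z, hz, h⟩
  · have : {y : V | ∀ l, |y l - c l| ≤ R3} = Set.pi univ fun l => closedBall (c l) R3 := by
      ext y
      simp [Real.dist_eq]
    rw [this]
    exact isCompact_univ_pi fun l => isCompact_closedBall _ _
  · exact fun y hy l => (hy l).trans_lt h3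
  intro ε hε hε1
  choose σ s1 s2 s3 s4 s5 s6 s7 using fun l => hU l ε hε hε1
  have pk : ∀ i j k : Fin 3, j ≠ i → k ≠ i → (∀ l, l = i ∨ l = j ∨ l = k) →
      Pk i j k c R1 R2 R3 δ B ε (σ i) χ := fun i j k h1 h2 h3 =>
    ⟨h1, h2, h3, hε, hε1, by linarith, by linarith, by linarith, hχs, hχ0, hχ1, hχB, hχR, hχz,
      s1 i, s2 i, s3 i, s4 i, s5 i⟩
  have p0 := pk 0 1 2 (by decide) (by decide) (by decide)
  have p1 := pk 1 0 2 (by decide) (by decide) (by decide)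
  have p2 := pk 2 0 1 (by decide) (by decide) (by decide)
  set T0 := shear 0 (gg 0 1 2 (σ 0) χ c) with hT0
  set T1 := shear 1 (gg 1 0 2 (σ 1) χ c) with hT1
  set T2 := shear 2 (gg 2 0 1 (σ 2) χ c) with hT2
  have d0 : ∀ y, DifferentiableAt ℝ T0 y := fun y =>
    p0.supp.smooth.differentiable (by simp) y
  have d1 : ∀ y, DifferentiableAt ℝ T1 y := fun y =>
    p1.supp.smooth.differentiable (by simp) y
  have d2 : ∀ y, DifferentiableAt ℝ T2 y := fun y =>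
    p2.supp.smooth.differentiable (by simp) y
  have hfd : ∀ y, fderiv ℝ (T2 ∘ (T1 ∘ T0)) y =
      (fderiv ℝ T2 (T1 (T0 y))).comp ((fderiv ℝ T1 (T0 y)).comp (fderiv ℝ T0 y)) := by
    intro y
    rw [fderiv_comp y (d2 _) ((d1 _).comp y (d0 y)), fderiv_comp y (d1 _) (d0 y)]
    rfl
  have n02 : ∀ y, T0 y 1 = y 1 := fun y => shear_ne (by decide) _ _
  have n03 : ∀ y, T0 y 2 = y 2 := fun y => shear_ne (by decide) _ _
  have n13 : ∀ y, T1 y 2 = y 2 := fun y => shear_ne (by decide) _ _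
  have n10 : ∀ y, T1 y 0 = y 0 := fun y => shear_ne (by decide) _ _
  refine ⟨T2 ∘ (T1 ∘ T0), suppDiffeo_comp p2.supp (suppDiffeo_comp p1.supp p0.supp), ?_, ?_,
    ?_, ?_⟩
  · intro y
    have e : (T2 ∘ (T1 ∘ T0)) y - y =
        (T2 (T1 (T0 y)) - T1 (T0 y)) + (T1 (T0 y) - T0 y) + (T0 y - y) := by
      simp only [Function.comp_apply]; abel
    rw [e]
    calc _ ≤ δ + δ + δ := (norm_add_le _ _).trans (add_le_add ((norm_add_le _ _).trans
          (add_le_add (p2.disp _) (p1.disp _))) (p0.disp _))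
      _ ≤ κ := by linarith
  · intro y
    rw [hfd]
    have e1 : ‖(fderiv ℝ T1 (T0 y)).comp (fderiv ℝ T0 y)‖ ≤ 3 * 3 :=
      (ContinuousLinearMap.opNorm_comp_le _ _).trans
        (mul_le_mul (p1.fd_le _) (p0.fd_le _) (norm_nonneg _) (by norm_num))
    have e2 : ‖(fderiv ℝ T2 (T1 (T0 y))).comp ((fderiv ℝ T1 (T0 y)).comp (fderiv ℝ T0 y))‖ ≤
        3 * (3 * 3) :=
      (ContinuousLinearMap.opNorm_comp_le _ _).trans
        (mul_le_mul (p2.fd_le _) e1 (norm_nonneg _) (by norm_num))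
    exact e2.trans (by norm_num)
  · intro y hy
    have hyR : ∀ l, |y l - c l| < R1 := by
      intro l
      have := hUR l (hy l)
      exact abs_lt.2 ⟨by linarith [this.1], by linarith [this.2]⟩
    have q0 : |T0 y 0 - c 0| < R2 := by
      have h1 := (norm_le_pi_norm (T0 y - y) 0).trans (p0.disp y)
      rw [Pi.sub_apply, Real.norm_eq_abs] at h1
      calc |T0 y 0 - c 0| = |(T0 y 0 - y 0) + (y 0 - c 0)| := by congr 1; ring
        _ ≤ |T0 y 0 - y 0| + |y 0 - c 0| := abs_add_le _ _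
        _ < R2 := by linarith [hyR 0]
    have q1 : |T1 (T0 y) 1 - c 1| < R2 := by
      have h1 := (norm_le_pi_norm (T1 (T0 y) - T0 y) 1).trans (p1.disp (T0 y))
      rw [Pi.sub_apply, Real.norm_eq_abs, n02] at h1
      calc |T1 (T0 y) 1 - c 1| = |(T1 (T0 y) 1 - y 1) + (y 1 - c 1)| := by congr 1; ring
        _ ≤ |T1 (T0 y) 1 - y 1| + |y 1 - c 1| := abs_add_le _ _
        _ < R2 := by linarith [hyR 1]
    have f0 := p0.fd_eq (y := y) ((hyR 1).trans h12) ((hyR 2).trans h12) (s6 0 _ (hy 0))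
    have f1 := p1.fd_eq (y := T0 y) q0 (by rw [n03]; exact (hyR 2).trans h12)
      (by rw [n02]; exact s6 1 _ (hy 1))
    have f2 := p2.fd_eq (y := T1 (T0 y)) (by rw [n10]; exact q0) q1
      (by rw [n13, n03]; exact s6 2 _ (hy 2))
    rw [hfd, f0, f1, f2]
    ext v l
    fin_cases l <;> simp [ev] <;> ring
  · intro y hy
    rw [hfd]
    have hσ' : ∀ l, |deriv (σ l) (y l)| ≤ δ := by
      intro l
      refine s7 l (y l) ?_
      rintro _ ⟨z, hz, rfl⟩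
      exact hy l z hz
    refine (comp3_sub (τ := τ) (by linarith) ?_ ?_ ?_).trans hτκ
    · exact (p0.fd_sub (hσ' 0)).trans hδB
    · exact (p1.fd_sub (y := T0 y) (by rw [n02]; exact hσ' 1)).trans hδB
    · exact (p2.fd_sub (y := T1 (T0 y)) (by rw [n13, n03]; exact hσ' 2)).trans hδB

end Vale.Agent.P073.H705
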