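import Vale.Agent.P073.H705.Mor1

/-!
# P073, row M1 (Morrey): telescoping over the halved cubes, and the estimate
-/

namespace Vale.Agent.P073.H705.Mor

open MeasureTheory Set Filter Topology Metric Vale.Agent.P073.HB
open Vale.Agent.P073.St (V Mat euc)
open scoped ContDiff ENNReal

/-- the mean oscillation about the value at `x₀` -/
noncomputable def osc (f : V → V) (x₀ c : V) (r : ℝ) : ℝ≥0∞ :=
  (volume (closedBall c r))⁻¹ * ∫⁻ z in closedBall c r, ‖f z - f x₀‖ₑ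

theorem vol_cb (c : V) {r : ℝ} (hr : 0 ≤ r) :
    volume (closedBall c r) = ENNReal.ofReal ((2 * r) ^ 3) := by
  rw [Real.volume_pi_closedBall c hr, Fintype.card_fin]

theorem real_aux {p r : ℝ} (hp : 3 < p) (hr : 0 < r) :
    (r ^ 3)⁻¹ * (((2 * r) ^ 3)⁻¹ * ((2 * (2 * r)) ^ 3 * (2 * r * ((2 * r) ^ 3) ^ (1 - 1 / p)))) ≤
      128 * r ^ (1 - 3 / p) := by
  have hp0 : 0 < p := by linarith
  have h2 : 0 < (2 * r) ^ 3 := by positivity
  have e1 : ((2 * r) ^ 3) ^ (1 - 1 / p) = (2 * r) ^ 3 * (2 * r) ^ (-(3 / p)) := by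
    rw [sub_eq_add_neg, Real.rpow_add h2, Real.rpow_one, ← Real.rpow_natCast (2 * r) 3,
      ← Real.rpow_mul (by positivity)]
    congr 2
    push_cast
    ring
  have e2 : r ^ (1 - 3 / p) = r * r ^ (-(3 / p)) := by
    rw [sub_eq_add_neg, Real.rpow_add hr, Real.rpow_one]
  have h3 : (2 * r) ^ (-(3 / p)) ≤ r ^ (-(3 / p)) :=
    Real.rpow_le_rpow_of_nonpos hr (by linarith) (by
      rw [neg_nonpos]; positivity)
  rw [e1, e2]
  have e3 : (r ^ 3)⁻¹ * (((2 * r) ^ 3)⁻¹ * ((2 * (2 * r)) ^ 3 *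
      (2 * r * ((2 * r) ^ 3 * (2 * r) ^ (-(3 / p)))))) = 128 * (r * (2 * r) ^ (-(3 / p))) := by
    have hr' : r ≠ 0 := hr.ne'
    field_simp
    ring
  rw [e3]
  gcongr

variable {Ω : Set V} {f : V → V} {F : V → (V →L[ℝ] V)}

/-- Hölder's inequality on a cube. -/
theorem holder_cb (hF : LocallyIntegrableOn F Ω volume) {p : ℝ} (hp : 3 < p) {B T : Set V}
    (hBT : B ⊆ T) (hTΩ : T ⊆ Ω) :
    ∫⁻ z in B, ‖F z‖ₑ ≤ (∫⁻ z in T, ‖F z‖ₑ ^ p) ^ (1 / p) * volume B ^ (1 - 1 / p) := by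
  have hp1 : 1 < p := by linarith
  have hpq : p.HolderConjugate (Real.conjExponent p) := Real.HolderConjugate.conjExponent hp1
  have hm : AEMeasurable (fun z => ‖F z‖ₑ) (volume.restrict B) :=
    (hF.aestronglyMeasurable.mono_measure
      (Measure.restrict_mono (hBT.trans hTΩ) le_rfl)).enorm
  have h1 := ENNReal.lintegral_mul_le_Lp_mul_Lq (volume.restrict B) hpq hm
    (aemeasurable_const (b := (1 : ℝ≥0∞)))
  simp only [Pi.mul_apply, mul_one, ENNReal.one_rpow, lintegral_const,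
    Measure.restrict_apply_univ, one_mul] at h1
  have e1 : 1 / Real.conjExponent p = 1 - 1 / p := by
    have := hpq.inv_add_inv_eq_one
    rw [one_div, one_div]; linarith
  rw [e1] at h1
  refine h1.trans (mul_le_mul_left (ENNReal.rpow_le_rpow (lintegral_mono_set hBT)
    (by positivity)) _)

/-- **The step**: from a cube to a cube of half the side in it. -/
theorem osc_step (hΩ : IsOpen Ω) (hf : ContinuousOn f Ω) (hF : LocallyIntegrableOn F Ω volume)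
    (hw : WeakDeriv volume Ω f F) {p : ℝ} (hp : 3 < p) {T : Set V} (hTΩ : T ⊆ Ω)
    {c c' : V} {r : ℝ} (hr : 0 < r) (hcT : closedBall c r ⊆ T)
    (hcc : closedBall c' (r / 2) ⊆ closedBall c r) (x₀ : V) :
    osc f x₀ c r ≤ ENNReal.ofReal (128 * r ^ (1 - 3 / p)) * (∫⁻ z in T, ‖F z‖ₑ ^ p) ^ (1 / p) +
      osc f x₀ c' (r / 2) := by
  have hr2 : 0 ≤ r / 2 := by positivity
  set a := volume (closedBall c' (r / 2)) with ha
  set b := volume (closedBall c r) with hb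
  set J := (∫⁻ z in T, ‖F z‖ₑ ^ p) ^ (1 / p) with hJ
  have ea : a = ENNReal.ofReal (r ^ 3) := by
    rw [ha, vol_cb c' hr2]; congr 2; ring
  have eb : b = ENNReal.ofReal ((2 * r) ^ 3) := by rw [hb, vol_cb c hr.le]
  have ha0 : a ≠ 0 := by
    rw [ea, Ne, ENNReal.ofReal_eq_zero, not_le]; positivity
  have hb0 : b ≠ 0 := by
    rw [eb, Ne, ENNReal.ofReal_eq_zero, not_le]; positivity
  have hat : a ≠ ⊤ := by rw [ea]; exact ENNReal.ofReal_ne_top
  have hbt : b ≠ ⊤ := by rw [eb]; exact ENNReal.ofReal_ne_top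
  set S := ∫⁻ y in closedBall c r, ‖f y - f x₀‖ₑ with hS
  set S' := ∫⁻ z in closedBall c' (r / 2), ‖f z - f x₀‖ₑ with hS'
  set W := ∫⁻ z in closedBall c' (r / 2), ∫⁻ y in closedBall c r, ‖f y - f z‖ₑ with hW
  have h1 : ∀ z, S ≤ (∫⁻ y in closedBall c r, ‖f y - f z‖ₑ) + b * ‖f z - f x₀‖ₑ := by
    intro z
    have h2 : S ≤ ∫⁻ y in closedBall c r, (‖f y - f z‖ₑ + ‖f z - f x₀‖ₑ) := by
      refine lintegral_mono fun y => ?_
      have e : f y - f x₀ = (f y - f z) + (f z - f x₀) := by abel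
      rw [e]
      exact enorm_add_le _ _
    rw [lintegral_add_right _ measurable_const, setLIntegral_const, mul_comm _ (volume _)] at h2
    exact h2
  have h3 : a * S ≤ W + b * S' := by
    calc a * S = ∫⁻ _ in closedBall c' (r / 2), S := by rw [setLIntegral_const, mul_comm]
      _ ≤ ∫⁻ z in closedBall c' (r / 2), ((∫⁻ y in closedBall c r, ‖f y - f z‖ₑ) +
            b * ‖f z - f x₀‖ₑ) := lintegral_mono fun z => h1 z
      _ = W + b * S' := by
          have hm : AEMeasurable (fun z => ‖f z - f x₀‖ₑ)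
              (volume.restrict (closedBall c' (r / 2))) := by
            have hc : ContinuousOn f (closedBall c' (r / 2)) :=
              hf.mono (hcc.trans (hcT.trans hTΩ))
            exact ((hc.sub continuousOn_const).aestronglyMeasurable
              measurableSet_closedBall).enorm
          rw [lintegral_add_right' _ (hm.const_mul b), lintegral_const_mul'' b hm]
  have h4 : W ≤ volume (closedBall (0 : V) (2 * r)) * (ENNReal.ofReal (2 * r) *
      (J * b ^ (1 - 1 / p))) := by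
    refine (double_le hΩ hf hF hw (hcT.trans hTΩ) measurableSet_closedBall
      measurableSet_closedBall hcc Subset.rfl).trans ?_
    gcongr
    exact holder_cb hF hp hcT hTΩ
  have h5 : a⁻¹ * (b⁻¹ * W) ≤ ENNReal.ofReal (128 * r ^ (1 - 3 / p)) * J := by
    have h6 : a⁻¹ * (b⁻¹ * W) ≤ a⁻¹ * (b⁻¹ * (volume (closedBall (0 : V) (2 * r)) *
        (ENNReal.ofReal (2 * r) * (J * b ^ (1 - 1 / p))))) := by gcongr
    refine h6.trans ?_
    have e7 : a⁻¹ * (b⁻¹ * (volume (closedBall (0 : V) (2 * r)) *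
        (ENNReal.ofReal (2 * r) * (J * b ^ (1 - 1 / p))))) =
        (a⁻¹ * (b⁻¹ * (volume (closedBall (0 : V) (2 * r)) *
        (ENNReal.ofReal (2 * r) * b ^ (1 - 1 / p))))) * J := by ring
    rw [e7, vol_cb 0 (by positivity), ea, eb, ← ENNReal.ofReal_inv_of_pos (by positivity),
      ← ENNReal.ofReal_inv_of_pos (by positivity),
      ENNReal.ofReal_rpow_of_pos (by positivity),
      ← ENNReal.ofReal_mul (by positivity), ← ENNReal.ofReal_mul (by positivity),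
      ← ENNReal.ofReal_mul (by positivity), ← ENNReal.ofReal_mul (by positivity)]
    exact mul_le_mul_left (ENNReal.ofReal_le_ofReal (real_aux hp hr)) _
  have e8 : osc f x₀ c r = a⁻¹ * (b⁻¹ * (a * S)) := by
    rw [osc, ← hS, ← hb, mul_left_comm b⁻¹ a S, ← mul_assoc a⁻¹ a, ENNReal.inv_mul_cancel ha0 hat,
      one_mul]
  have e9 : osc f x₀ c' (r / 2) = a⁻¹ * (b⁻¹ * (b * S')) := by
    rw [osc, ← hS', ← ha, ← mul_assoc b⁻¹ b, ENNReal.inv_mul_cancel hb0 hbt, one_mul]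
  rw [e8, e9]
  calc a⁻¹ * (b⁻¹ * (a * S)) ≤ a⁻¹ * (b⁻¹ * (W + b * S')) := by gcongr
    _ = a⁻¹ * (b⁻¹ * W) + a⁻¹ * (b⁻¹ * (b * S')) := by rw [mul_add, mul_add]
    _ ≤ _ := by gcongr

/-- cubes shrinking to a point -/
theorem shrink {x₀ c : V} {ρ : ℝ} (hx : x₀ ∈ closedBall c ρ) {t : ℝ} (ht0 : 0 ≤ t)
    (ht1 : t ≤ 1) : closedBall (x₀ + t • (c - x₀)) (t * ρ) ⊆ closedBall c ρ := by
  intro z hz
  rw [mem_closedBall, dist_eq_norm] at hz hx ⊢
  have e : z - c = (z - (x₀ + t • (c - x₀))) + (1 - t) • (x₀ - c) := by module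
  rw [e]
  calc ‖(z - (x₀ + t • (c - x₀))) + (1 - t) • (x₀ - c)‖
      ≤ ‖z - (x₀ + t • (c - x₀))‖ + ‖(1 - t) • (x₀ - c)‖ := norm_add_le _ _
    _ ≤ t * ρ + (1 - t) * ρ := by
        rw [norm_smul, Real.norm_of_nonneg (sub_nonneg.2 ht1)]
        gcongr
    _ = ρ := by ring

theorem mem_shrink {x₀ c : V} {ρ : ℝ} (hx : x₀ ∈ closedBall c ρ) {t : ℝ} (ht0 : 0 ≤ t) :
    x₀ ∈ closedBall (x₀ + t • (c - x₀)) (t * ρ) := by
  rw [mem_closedBall, dist_eq_norm] at hx ⊢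
  have e : x₀ - (x₀ + t • (c - x₀)) = t • (x₀ - c) := by module
  rw [e, norm_smul, Real.norm_of_nonneg ht0]
  gcongr

/-- the oscillations of the shrinking cubes after `n` steps -/
theorem osc_iter (hΩ : IsOpen Ω) (hf : ContinuousOn f Ω) (hF : LocallyIntegrableOn F Ω volume)
    (hw : WeakDeriv volume Ω f F) {p : ℝ} (hp : 3 < p) {c x₀ : V} {ρ : ℝ} (hρ : 0 < ρ)
    (hcΩ : closedBall c ρ ⊆ Ω) (hx : x₀ ∈ closedBall c ρ) (n : ℕ) :
    osc f x₀ c ρ ≤ ENNReal.ofReal (∑ k ∈ Finset.range n, 128 * ((1 / 2 : ℝ) ^ k * ρ) ^ (1 - 3 / p)) *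
      (∫⁻ z in closedBall c ρ, ‖F z‖ₑ ^ p) ^ (1 / p) +
      osc f x₀ (x₀ + (1 / 2 : ℝ) ^ n • (c - x₀)) ((1 / 2 : ℝ) ^ n * ρ) := by
  induction n with
  | zero =>
    simp
  | succ n ih =>
    have hpos : 0 < (1 / 2 : ℝ) ^ n * ρ := by positivity
    have h1 := osc_step hΩ hf hF hw hp (T := closedBall c ρ) hcΩ
      (c := x₀ + (1 / 2 : ℝ) ^ n • (c - x₀))
      (c' := x₀ + (1 / 2 : ℝ) ^ (n + 1) • (c - x₀)) hpos
      (shrink hx (by positivity) (pow_le_one₀ (by norm_num) (by norm_num))) (by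
        have h2 := shrink (mem_shrink hx (t := (1 / 2 : ℝ) ^ n) (by positivity))
          (t := 1 / 2) (by norm_num) (by norm_num)
        have e1 : x₀ + (1 / 2 : ℝ) • (x₀ + (1 / 2 : ℝ) ^ n • (c - x₀) - x₀) =
            x₀ + (1 / 2 : ℝ) ^ (n + 1) • (c - x₀) := by
          rw [add_sub_cancel_left, smul_smul, pow_succ']
        have e2 : (1 / 2 : ℝ) * ((1 / 2 : ℝ) ^ n * ρ) = (1 / 2 : ℝ) ^ n * ρ / 2 := by ring
        rw [e1, e2] at h2
        exact h2) x₀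
    have e3 : (1 / 2 : ℝ) ^ n * ρ / 2 = (1 / 2 : ℝ) ^ (n + 1) * ρ := by rw [pow_succ]; ring
    rw [e3] at h1
    rw [Finset.sum_range_succ, ENNReal.ofReal_add (Finset.sum_nonneg fun k _ => by positivity)
      (by positivity), add_mul, add_assoc]
    exact ih.trans (by gcongr)

/-- the limit of the oscillations -/
theorem osc_small (hf : ContinuousOn f Ω) {c x₀ : V} {ρ : ℝ} (hρ : 0 < ρ)
    (hcΩ : closedBall c ρ ⊆ Ω) (hx : x₀ ∈ closedBall c ρ) {δ : ℝ≥0∞} (hδ : 0 < δ) :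
    ∃ n : ℕ, osc f x₀ (x₀ + (1 / 2 : ℝ) ^ n • (c - x₀)) ((1 / 2 : ℝ) ^ n * ρ) ≤ δ := by
  have h1 : ∀ᶠ z in 𝓝[Ω] x₀, ‖f z - f x₀‖ₑ < δ := by
    have h2 : ContinuousWithinAt (fun z => ‖f z - f x₀‖ₑ) Ω x₀ :=
      (((hf x₀ (hcΩ hx)).sub continuousWithinAt_const)).enorm
    have h3 : ‖f x₀ - f x₀‖ₑ < δ := by rwa [sub_self, enorm_zero]
    exact h2.eventually_lt_const h3
  obtain ⟨η, hη, h4⟩ := Metric.mem_nhdsWithin_iff.1 h1
  have h5 : Tendsto (fun n : ℕ => 2 * ((1 / 2 : ℝ) ^ n * ρ)) atTop (𝓝 (2 * (0 * ρ))) :=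
    ((tendsto_pow_atTop_nhds_zero_of_lt_one (by norm_num) (by norm_num)).mul_const ρ).const_mul 2
  rw [zero_mul, mul_zero] at h5
  obtain ⟨n, hn⟩ := (h5.eventually_lt_const hη).exists
  refine ⟨n, ?_⟩
  set c' := x₀ + (1 / 2 : ℝ) ^ n • (c - x₀) with hc'
  set r := (1 / 2 : ℝ) ^ n * ρ with hr
  have hr0 : 0 < r := by rw [hr]; positivity
  have hb0 : volume (closedBall c' r) ≠ 0 := by
    rw [vol_cb c' hr0.le, Ne, ENNReal.ofReal_eq_zero, not_le]; positivity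
  have hbt : volume (closedBall c' r) ≠ ⊤ := by
    rw [vol_cb c' hr0.le]; exact ENNReal.ofReal_ne_top
  have hx' : x₀ ∈ closedBall c' r := mem_shrink hx (by positivity)
  have hsub : closedBall c' r ⊆ closedBall c ρ :=
    shrink hx (by positivity) (pow_le_one₀ (by norm_num) (by norm_num))
  have h6 : ∫⁻ z in closedBall c' r, ‖f z - f x₀‖ₑ ≤ ∫⁻ _ in closedBall c' r, δ := by
    refine setLIntegral_mono' measurableSet_closedBall fun z hz => ?_
    refine (h4 ⟨?_, hcΩ (hsub hz)⟩).le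
    rw [mem_ball]
    calc dist z x₀ ≤ dist z c' + dist x₀ c' := dist_triangle_right _ _ _
      _ ≤ r + r := add_le_add (mem_closedBall.1 hz) (mem_closedBall.1 hx')
      _ = 2 * r := by ring
      _ < η := hn
  rw [setLIntegral_const] at h6
  calc osc f x₀ c' r ≤ (volume (closedBall c' r))⁻¹ * (δ * volume (closedBall c' r)) := by
        unfold osc; gcongr
    _ = δ := by
        rw [mul_comm δ, ← mul_assoc, ENNReal.inv_mul_cancel hb0 hbt, one_mul]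

/-- the mean oscillation -/
theorem osc_le (hΩ : IsOpen Ω) (hf : ContinuousOn f Ω) (hF : LocallyIntegrableOn F Ω volume)
    (hw : WeakDeriv volume Ω f F) {p : ℝ} (hp : 3 < p) {c x₀ : V} {ρ : ℝ} (hρ : 0 < ρ)
    (hcΩ : closedBall c ρ ⊆ Ω) (hx : x₀ ∈ closedBall c ρ) :
    osc f x₀ c ρ ≤ ENNReal.ofReal (128 * (1 - (1 / 2 : ℝ) ^ (1 - 3 / p))⁻¹ * ρ ^ (1 - 3 / p)) *
      (∫⁻ z in closedBall c ρ, ‖F z‖ₑ ^ p) ^ (1 / p) := by
  refine ENNReal.le_of_forall_pos_le_add fun δ hδ _ => ?_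
  obtain ⟨n, hn⟩ := osc_small hf hρ hcΩ hx (δ := (δ : ℝ≥0∞)) (by exact_mod_cast hδ)
  refine (osc_iter hΩ hf hF hw hp hρ hcΩ hx n).trans ?_
  gcongr
  have hα : 0 < 1 - 3 / p := by
    rw [sub_pos, div_lt_one (by linarith)]; exact hp
  set α := 1 - 3 / p with hαdef
  set q := (1 / 2 : ℝ) ^ α with hq
  have hq0 : 0 ≤ q := by positivity
  have hq1 : q < 1 := Real.rpow_lt_one (by norm_num) (by norm_num) hα
  have e1 : ∀ k : ℕ, 128 * ((1 / 2 : ℝ) ^ k * ρ) ^ α = 128 * ρ ^ α * q ^ k := by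
    intro k
    rw [Real.mul_rpow (by positivity) hρ.le, ← Real.rpow_natCast, ← Real.rpow_mul (by norm_num),
      hq, ← Real.rpow_natCast, ← Real.rpow_mul (by norm_num), mul_comm (k : ℝ) α]
    ring
  simp_rw [e1]
  rw [← Finset.mul_sum]
  have h1 : ∑ k ∈ Finset.range n, q ^ k ≤ (1 - q)⁻¹ := by
    rw [← tsum_geometric_of_lt_one hq0 hq1]
    exact (summable_geometric_of_lt_one hq0 hq1).sum_le_tsum _ fun k _ => by positivity
  calc 128 * ρ ^ α * ∑ k ∈ Finset.range n, q ^ k ≤ 128 * ρ ^ α * (1 - q)⁻¹ := by gcongr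
    _ = 128 * (1 - q)⁻¹ * ρ ^ α := by ring

/-- **Morrey's estimate on a cube.** -/
theorem morrey (hΩ : IsOpen Ω) (hf : ContinuousOn f Ω) (hF : LocallyIntegrableOn F Ω volume)
    (hw : WeakDeriv volume Ω f F) {p : ℝ} (hp : 3 < p) {c x y : V} {ρ : ℝ} (hρ : 0 < ρ)
    (hcΩ : closedBall c ρ ⊆ Ω) (hx : x ∈ closedBall c ρ) (hy : y ∈ closedBall c ρ) :
    ‖f x - f y‖ₑ ^ p ≤
      ENNReal.ofReal ((256 * (1 - (1 / 2 : ℝ) ^ (1 - 3 / p))⁻¹) ^ p * ρ ^ (p - 3)) *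
        ∫⁻ z in closedBall c ρ, ‖F z‖ₑ ^ p := by
  have hp0 : 0 < p := by linarith
  have hα : 0 < 1 - 3 / p := by
    rw [sub_pos, div_lt_one (by linarith)]; exact hp
  have hq1 : (1 / 2 : ℝ) ^ (1 - 3 / p) < 1 := Real.rpow_lt_one (by norm_num) (by norm_num) hα
  set q := (1 / 2 : ℝ) ^ (1 - 3 / p) with hq
  have hq2 : 0 < (1 - q)⁻¹ := inv_pos.2 (by linarith)
  set b := volume (closedBall c ρ) with hb
  have hb0 : b ≠ 0 := by
    rw [hb, vol_cb c hρ.le, Ne, ENNReal.ofReal_eq_zero, not_le]; positivity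
  have hbt : b ≠ ⊤ := by rw [hb, vol_cb c hρ.le]; exact ENNReal.ofReal_ne_top
  set I := ∫⁻ z in closedBall c ρ, ‖F z‖ₑ ^ p with hI
  have hox := osc_le hΩ hf hF hw hp hρ hcΩ hx
  have hoy := osc_le hΩ hf hF hw hp hρ hcΩ hy
  have h1 : ‖f x - f y‖ₑ * b ≤ (∫⁻ z in closedBall c ρ, ‖f z - f x‖ₑ) +
      ∫⁻ z in closedBall c ρ, ‖f z - f y‖ₑ := by
    have hm : ∀ w : V, AEMeasurable (fun z => ‖f z - f w‖ₑ) (volume.restrict (closedBall c ρ)) :=
      fun w => (((hf.mono hcΩ).sub continuousOn_const).aestronglyMeasurable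
        measurableSet_closedBall).enorm
    rw [← lintegral_add_left' (hm x), ← setLIntegral_const]
    refine lintegral_mono fun z => ?_
    have e : f x - f y = -(f z - f x) + (f z - f y) := by abel
    rw [e]
    exact (enorm_add_le _ _).trans (by rw [enorm_neg])
  have h2 : ‖f x - f y‖ₑ ≤ osc f x c ρ + osc f y c ρ := by
    have e2 : ‖f x - f y‖ₑ = b⁻¹ * (‖f x - f y‖ₑ * b) := by
      rw [mul_comm _ b, ← mul_assoc, ENNReal.inv_mul_cancel hb0 hbt, one_mul]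
    rw [e2, osc, osc, ← mul_add]
    gcongr
  have h3 : ‖f x - f y‖ₑ ≤ ENNReal.ofReal (256 * (1 - q)⁻¹ * ρ ^ (1 - 3 / p)) * I ^ (1 / p) := by
    refine (h2.trans (add_le_add hox hoy)).trans (le_of_eq ?_)
    rw [← add_mul, ← ENNReal.ofReal_add (by positivity) (by positivity)]
    congr 2
    ring
  calc ‖f x - f y‖ₑ ^ p
      ≤ (ENNReal.ofReal (256 * (1 - q)⁻¹ * ρ ^ (1 - 3 / p)) * I ^ (1 / p)) ^ p :=
        ENNReal.rpow_le_rpow h3 hp0.le
    _ = ENNReal.ofReal ((256 * (1 - q)⁻¹) ^ p * ρ ^ (p - 3)) * I := by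
        rw [ENNReal.mul_rpow_of_nonneg _ _ hp0.le, ← ENNReal.rpow_mul, one_div,
          inv_mul_cancel₀ hp0.ne', ENNReal.rpow_one,
          ENNReal.ofReal_rpow_of_pos (by positivity), Real.mul_rpow (by positivity)
          (by positivity), ← Real.rpow_mul hρ.le]
        congr 4
        field_simp

end Mor

open MeasureTheory Set Vale.Agent.P073.St in
/-- **Row M1** (Morrey's estimate on cubes). -/
theorem specMorrey : H655.SpecMorrey := by
  intro p hp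
  have hα : 0 < 1 - 3 / p := by
    rw [sub_pos, div_lt_one (by linarith)]; exact hp
  have hq1 : (1 / 2 : ℝ) ^ (1 - 3 / p) < 1 := Real.rpow_lt_one (by norm_num) (by norm_num) hα
  have hq2 : 0 < (1 - (1 / 2 : ℝ) ^ (1 - 3 / p))⁻¹ := inv_pos.2 (by linarith)
  refine ⟨(256 * (1 - (1 / 2 : ℝ) ^ (1 - 3 / p))⁻¹) ^ p, by positivity, ?_⟩
  intro Ω f F hΩ hS hf c ρ hρ hc x hx y hy
  have hv : volume Ω ≠ ⊤ := PK.volume_ne_top_of_domain hΩ
  have hp1 : 1 ≤ p := by linarith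
  have hp0 : 0 ≤ p := by linarith
  rw [H655.cube_eq hρ] at hc hx hy ⊢
  have h1 := Mor.morrey hΩ.1 hf (PK.IsSob.locallyIntegrableOn_cl hp1 hv hS)
    (PK.IsSob.weakDeriv hp1 hv hS) hp hρ hc hx hy
  rw [← ENNReal.ofReal_rpow_of_nonneg (norm_nonneg _) hp0, ofReal_norm]
  refine h1.trans (le_of_eq ?_)
  congr 1
  refine lintegral_congr fun z => ?_
  rw [← ENNReal.ofReal_rpow_of_nonneg (norm_nonneg _) hp0, ofReal_norm]

end Vale.Agent.P073.H705
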