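import Mathlib

/-!
# P073: sets with null coordinate projections
-/

namespace Vale.Agent.P073.H705

open MeasureTheory Set Metric
open scoped ENNReal NNReal

/-- a set of length zero has null coordinate projections -/
theorem hausdorffMeasure_one_null {E : Set (Fin 3 → ℝ)} (hE : μH[1] E = 0) (l : Fin 3) :
    volume ((fun y : Fin 3 → ℝ => y l) '' E) = 0 := by
  have hL : LipschitzWith 1 (fun y : Fin 3 → ℝ => y l) := LipschitzWith.eval l
  have h1 := hL.hausdorffMeasure_image_le (d := 1) zero_le_one E
  rw [hE, mul_zero] at h1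
  rw [← hausdorffMeasure_real]
  exact le_antisymm h1 bot_le

/-- a countable set has null coordinate projections -/
theorem countable_null {E : Set (Fin 3 → ℝ)} (hE : E.Countable) (l : Fin 3) :
    volume ((fun y : Fin 3 → ℝ => y l) '' E) = 0 :=
  (hE.image _).measure_zero volume

/-- a subset of a product of null sets has null coordinate projections -/
theorem product_null {E : Set (Fin 3 → ℝ)} {N : Fin 3 → Set ℝ} (hN : ∀ l, volume (N l) = 0)
    (hE : ∀ y ∈ E, ∀ l, y l ∈ N l) (l : Fin 3) :
    volume ((fun y : Fin 3 → ℝ => y l) '' E) = 0 := by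
  refine measure_mono_null ?_ (hN l)
  rintro _ ⟨y, hy, rfl⟩
  exact hE y hy l

/-- the Hausdorff dimension below one -/
theorem dimH_lt_one_null {E : Set (Fin 3 → ℝ)} (hE : dimH E < 1) (l : Fin 3) :
    volume ((fun y : Fin 3 → ℝ => y l) '' E) = 0 := by
  refine hausdorffMeasure_one_null ?_ l
  have h := hausdorffMeasure_of_dimH_lt (d := 1) (s := E) (by simpa using hE)
  simpa using h

end Vale.Agent.P073.H705
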