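import Vale.Agent.P073.SQ.FaceCube
import Vale.Agent.P073.H880.Rows

/-!
# P073: the squeeze of a cube for all `p < 3` (row A of helper880)

The sector integral of `SQ/Polar.lean` in the case `S = univ`: both tangential directions are
scaled by `ρ / |x i - c i|`, so the weight that is left is `(ρ / |x i - c i|) ^ (p - 2)`, which is
integrable for `p < 3`.
-/

namespace Vale.Agent.P073.H705

open MeasureTheory Set Filter Topology Vale.Agent.P073.St Vale.Agent.P073.SQ
open Vale.Agent.P073.SQ.Edge Vale.Agent.P073.SQ.Polar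
open scoped ContDiff ENNReal

theorem prod_df_univ (i : Fin 3) (r : ℝ) : ∏ l, df Finset.univ i r l = r * r := by
  simp [df]
  ring

theorem inner_le3 {c : V} {ρ p : ℝ} {i : Fin 3} {H : V → ℝ≥0∞} (hρ : 0 < ρ) (hp : 1 ≤ p)
    (hH : Measurable H) (u : ℝ) :
    ∫⁻ y, ENNReal.ofReal ((ρ / |u - c i|) ^ p) * hh c ρ i H (dd Finset.univ c ρ i (u, y)) ≤
      ENNReal.ofReal ((ρ / |u - c i|) ^ (p - 1 - 1)) * ∫⁻ z, hh c ρ i H z := by
  rcases eq_or_ne (u - c i) 0 with h0 | h0
  · rw [h0, abs_zero, div_zero, Real.zero_rpow (by linarith), ENNReal.ofReal_zero]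
    simp
  · have habs : 0 < |u - c i| := abs_pos.2 h0
    set r := ρ / |u - c i| with hr
    have hr0 : 0 < r := by positivity
    have h1 := int_diag (d := df Finset.univ i r) (df_pos Finset.univ i hr0) (i.removeNth c)
      (measurable_hh c ρ i hH)
    rw [lintegral_const_mul' _ _ ENNReal.ofReal_ne_top, ← h1, ← mul_assoc]
    have h2 : ENNReal.ofReal (r ^ p) =
        ENNReal.ofReal (r ^ (p - 1 - 1)) * ENNReal.ofReal (∏ l, df Finset.univ i r l) := by
      rw [← ENNReal.ofReal_mul (by positivity), prod_df_univ, ← mul_assoc,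
        ← Real.rpow_add_one hr0.ne', ← Real.rpow_add_one hr0.ne']
      congr 2
      ring
    exact mul_le_mul' h2.le le_rfl

/-- the polar inequality on the whole cube for `p < 3` -/
theorem polar3 {p : ℝ} (hp1 : 1 ≤ p) (hp3 : p < 3) (c : V) {ρ : ℝ} (hρ : 0 < ρ) :
    PolarIneq p (ENNReal.ofReal (1 / (3 - p))) Finset.univ c ρ := by
  intro i hi H hH
  have hR : ∀ b, ∫⁻ x in cube c ρ, H (Function.update x i b) =
      ENNReal.ofReal (2 * ρ) * ∫⁻ y in sq (i.removeNth c) ρ, H (i.insertNth b y) := by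
    intro b
    rw [cube_eq i c ρ, fubini_const i b measurableSet_Icc (measurableSet_sq _ _) hH,
      Real.volume_Icc]
    congr 2
    ring
  have hI : ∫⁻ z, hh c ρ i H z = (∫⁻ y in sq (i.removeNth c) ρ, H (i.insertNth (c i + ρ) y)) +
      ∫⁻ y in sq (i.removeNth c) ρ, H (i.insertNth (c i - ρ) y) := by
    have m1 : Measurable fun y : Fin 2 → ℝ => H (i.insertNth (c i + ρ) y) :=
      hH.comp (measurable_ins _ _)
    unfold Polar.hh
    rw [lintegral_indicator (measurableSet_sq _ _), lintegral_add_left m1]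
  have hΦ : Measurable fun q : ℝ × (Fin 2 → ℝ) =>
      ENNReal.ofReal ((ρ / |q.1 - c i|) ^ p) * hh c ρ i H (dd Finset.univ c ρ i q) := by
    refine Measurable.mul ?_ ((measurable_hh c ρ i hH).comp (measurable_dd Finset.univ c ρ i))
    refine ENNReal.measurable_ofReal.comp ?_
    have h2 : Measurable fun q : ℝ × (Fin 2 → ℝ) => |q.1 - c i| :=
      (measurable_fst.sub_const _).norm
    exact (measurable_const.div h2).pow_const p
  calc ∫⁻ x in cube c ρ ∩ sector Finset.univ c i,
          ENNReal.ofReal ((ρ / |x i - c i|) ^ p) * H (rad Finset.univ c ρ i x)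
      ≤ ∫⁻ x in cube c ρ ∩ sector Finset.univ c i,
          ENNReal.ofReal ((ρ / |x i - c i|) ^ p) *
            hh c ρ i H (dd Finset.univ c ρ i (x i, i.removeNth x)) := by
        refine setLIntegral_mono'
          ((isClosed_cube c ρ).measurableSet.inter (isClosed_sector _ c i).measurableSet) ?_
        rintro x ⟨hx, hx'⟩
        exact pointwise H hi hρ hp1 hx hx'
    _ ≤ ∫⁻ x in {x : V | x i ∈ Icc (c i - ρ) (c i + ρ) ∧ i.removeNth x ∈ univ},
          ENNReal.ofReal ((ρ / |x i - c i|) ^ p) *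
            hh c ρ i H (dd Finset.univ c ρ i (x i, i.removeNth x)) := by
        refine lintegral_mono_set ?_
        rintro x ⟨hx, -⟩
        rw [cube_eq i c ρ] at hx
        exact ⟨hx.1, mem_univ _⟩
    _ = ∫⁻ u in Icc (c i - ρ) (c i + ρ), ∫⁻ y in univ,
          ENNReal.ofReal ((ρ / |u - c i|) ^ p) * hh c ρ i H (dd Finset.univ c ρ i (u, y)) :=
        fubini i measurableSet_Icc MeasurableSet.univ hΦ
    _ ≤ ∫⁻ u in Icc (c i - ρ) (c i + ρ),
          ENNReal.ofReal ((ρ / |u - c i|) ^ (p - 1 - 1)) * ∫⁻ z, hh c ρ i H z := by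
        refine setLIntegral_mono' measurableSet_Icc fun u _ => ?_
        rw [Measure.restrict_univ]
        exact inner_le3 hρ hp1 hH u
    _ = (∫⁻ u in Icc (c i - ρ) (c i + ρ), ENNReal.ofReal ((ρ / |u - c i|) ^ (p - 1 - 1))) *
          ∫⁻ z, hh c ρ i H z := by
        rw [lintegral_mul_const]
        refine ENNReal.measurable_ofReal.comp ?_
        have h2 : Measurable fun u : ℝ => |u - c i| := (measurable_id.sub_const _).norm
        exact (measurable_const.div h2).pow_const _
    _ ≤ 2 * ENNReal.ofReal (ρ / (2 - (p - 1))) * ∫⁻ z, hh c ρ i H z := by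
        gcongr
        exact int_full (c i) hρ (by linarith)
    _ = ENNReal.ofReal (1 / (3 - p)) * ((∫⁻ x in cube c ρ, H (Function.update x i (c i + ρ))) +
          ∫⁻ x in cube c ρ, H (Function.update x i (c i - ρ))) := by
        rw [hR, hR, hI, ← mul_add, ← mul_assoc, show 2 - (p - 1) = 3 - p by ring]
        congr 1
        rw [← ENNReal.ofReal_mul (by
          have : 0 < 3 - p := by linarith
          positivity), show (2:ℝ≥0∞) = ENNReal.ofReal 2 by simp,
          ← ENNReal.ofReal_mul (by norm_num)]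
        congr 1
        ring

/-- **Row A.** -/
theorem specCube3 : H880.SpecCube3 := by
  intro p hp hp3
  obtain ⟨CR, hCR, hrad⟩ := exists_radSeq specRad
  have hCp : ENNReal.ofReal (1 / (3 - p)) ≠ ⊤ := ENNReal.ofReal_ne_top
  refine ⟨ENNReal.ofReal (1 + 3 ^ p) * ENNReal.ofReal (1 / (3 - p)),
    ENNReal.mul_ne_top ENNReal.ofReal_ne_top hCp, ?_⟩
  intro c ρ W G ε hρ hW hcW hG hε
  obtain ⟨K, s, h1, h2, h3⟩ := hrad Finset.univ c ρ univ Finset.univ_nonempty hρ isOpen_univ
    (fun _ _ _ => mem_univ _)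
  have hsub : face Finset.univ c ρ ⊆ W := fun x hx => hcW fun l => hx.2 l (Finset.mem_univ l)
  have e1 := energy_le h1 hρ hCR hp hW hG hsub Finset.univ_nonempty hCp (polar3 hp hp3 c hρ) hε
  obtain ⟨n, hn1⟩ := e1.exists
  refine ⟨K n, s n, h2 n, ?_, ?_⟩
  · intro x hx l
    exact (h3 n hx).2 l (Finset.mem_univ l)
  · simp only [pr_univ, id] at hn1
    rw [lint_dE _ _ _ measurable_id'] at hn1
    refine hn1.trans_eq ?_
    have hm : ∀ (i : Fin 3) (b : ℝ), ∫⁻ x in cube c ρ, dens p G Finset.univ c i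
        (Function.update x i b) =
        ∑ j ∈ Finset.univ.erase i, ∫⁻ x in cube c ρ, dE p G j (Function.update x i b) := by
      intro i b
      simp only [dens, pr_univ, id]
      exact lint_dE _ _ _ (measurable_upd i b)
    simp only [sum_sign, one_mul, neg_one_mul, ← sub_eq_add_neg, hm]

end Vale.Agent.P073.H705
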