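import Vale.Agent.P073.RT.Rows

/-!
# P073, row T2 (disc replacement): the square annulus
-/

open Set Metric Topology Filter

namespace Vale.Agent.P073.H705.DR

open Vale.Agent.P073.St (V)
open _root_.P073 (ConHomeo ConicalOn ConicalWithinAt ConBall ConicalSet)
open _root_.P073.PA691 (P2 S1 Q0)

/-! ### the function `φ_t(s) = r s - η (1 - |t - s|)` -/

/-- the piecewise linear profile -/
def pf (r η t s : ℝ) : ℝ := r * s - η * (1 - |t - s|)

theorem pf_mono {r η : ℝ} (hη : 0 < η) (hηr : η < r) (t : ℝ) : StrictMono (pf r η t) := by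
  intro s s' h
  unfold pf
  have h1 : |t - s| - |t - s'| ≤ s' - s := by
    have := abs_sub_abs_le_abs_sub (t - s) (t - s')
    have e : t - s - (t - s') = s' - s := by ring
    rw [e, abs_of_pos (sub_pos.2 h)] at this
    exact this
  nlinarith [sub_pos.2 h]

theorem pf_one {r η t : ℝ} (ht : t ≤ 1) : pf r η t 1 = r - η * t := by
  unfold pf
  rw [abs_of_nonpos (by linarith)]
  ring

theorem pf_neg_one {r η t : ℝ} (ht : -1 ≤ t) : pf r η t (-1) = -(r - η * t) := by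
  unfold pf
  rw [abs_of_nonneg (by linarith)]
  ring

theorem pf_cont (r η t : ℝ) : Continuous (pf r η t) := by
  unfold pf
  fun_prop

theorem pf_surj {r η t x : ℝ} (ht : t ∈ Icc (-1 : ℝ) 1) (hx : |x| ≤ r - η * t) :
    ∃ s ∈ Icc (-1 : ℝ) 1, pf r η t s = x := by
  have h1 : x ∈ Icc (pf r η t (-1)) (pf r η t 1) := by
    rw [pf_one ht.2, pf_neg_one ht.1]
    exact abs_le.1 hx
  exact intermediate_value_Icc (by norm_num) (pf_cont r η t).continuousOn h1

theorem pf_abs_le {r η t s : ℝ} (hη : 0 < η) (hηr : η < r) (ht : t ∈ Icc (-1 : ℝ) 1)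
    (hs : |s| ≤ 1) : |pf r η t s| ≤ r - η * t := by
  rw [abs_le] at hs ⊢
  have hm := (pf_mono hη hηr t).monotone
  rw [← pf_neg_one ht.1, ← pf_one ht.2]
  exact ⟨hm hs.1, hm hs.2⟩

/-! ### the square annulus in the plane -/

/-- the chart of the square annulus -/
def pa (r η : ℝ) (θ : P2) (t : ℝ) : P2 := fun i => pf r η t (θ i)

theorem exists_abs_eq_one {θ : P2} (hθ : θ ∈ S1) : ∃ i, |θ i| = 1 := by
  by_contra h
  push Not at h
  have h1 : ‖θ‖ = 1 := mem_sphere_zero_iff_norm.1 hθ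
  have h2 : ‖θ‖ < 1 := by
    rw [pi_norm_lt_iff one_pos]
    intro i
    have h3 : |θ i| ≤ 1 := by
      rw [← h1, ← Real.norm_eq_abs]; exact norm_le_pi_norm θ i
    exact lt_of_le_of_ne h3 (h i)
  linarith

theorem pa_norm {r η : ℝ} (hη : 0 < η) (hηr : η < r) {θ : P2} (hθ : θ ∈ S1) {t : ℝ}
    (ht : t ∈ Icc (-1 : ℝ) 1) : ‖pa r η θ t‖ = r - η * t := by
  have h0 : 0 ≤ r - η * t := by nlinarith [ht.2]
  have h1 : ‖θ‖ = 1 := mem_sphere_zero_iff_norm.1 hθ
  apply le_antisymm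
  · rw [pi_norm_le_iff_of_nonneg h0]
    intro i
    rw [Real.norm_eq_abs]
    refine pf_abs_le hη hηr ht ?_
    rw [← h1, ← Real.norm_eq_abs]; exact norm_le_pi_norm θ i
  · obtain ⟨i, hi⟩ := exists_abs_eq_one hθ
    refine le_trans (le_of_eq ?_) (norm_le_pi_norm (pa r η θ t) i)
    rw [Real.norm_eq_abs]
    show _ = |pf r η t (θ i)|
    rcases (abs_eq zero_le_one).1 hi with h2 | h2
    · rw [h2, pf_one ht.2, abs_of_nonneg h0]
    · rw [h2, pf_neg_one ht.1, abs_neg, abs_of_nonneg h0]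

theorem pa_inj {r η : ℝ} (hη : 0 < η) (hηr : η < r) {θ θ' : P2} (hθ : θ ∈ S1) (hθ' : θ' ∈ S1)
    {t t' : ℝ} (ht : t ∈ Icc (-1 : ℝ) 1) (ht' : t' ∈ Icc (-1 : ℝ) 1)
    (h : pa r η θ t = pa r η θ' t') : θ = θ' ∧ t = t' := by
  have h1 := pa_norm hη hηr hθ ht
  have h2 := pa_norm hη hηr hθ' ht'
  rw [h, h2] at h1
  have h3 : t = t' := by
    have : η * t' = η * t := by linarith
    exact (mul_left_cancel₀ hη.ne' this).symm
  subst h3
  refine ⟨?_, rfl⟩
  funext i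
  exact (pf_mono hη hηr t).injective (congrFun h i)

theorem pa_surj {r η : ℝ} (hη : 0 < η) (hηr : η < r) {x : P2} (h1 : r - η ≤ ‖x‖)
    (h2 : ‖x‖ ≤ r + η) : ∃ θ ∈ S1, pa r η θ ((r - ‖x‖) / η) = x ∧
      (r - ‖x‖) / η ∈ Icc (-1 : ℝ) 1 := by
  set t := (r - ‖x‖) / η with ht
  have ht1 : t ∈ Icc (-1 : ℝ) 1 := by
    rw [ht, mem_Icc, le_div_iff₀ hη, div_le_iff₀ hη]
    constructor <;> linarith
  have hn : r - η * t = ‖x‖ := by
    rw [ht]
    field_simp
    ring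
  have h3 : ∀ i, ∃ s ∈ Icc (-1 : ℝ) 1, pf r η t s = x i := fun i => by
    refine pf_surj ht1 ?_
    rw [hn, ← Real.norm_eq_abs]
    exact norm_le_pi_norm x i
  choose θ hθ1 hθ2 using h3
  refine ⟨θ, ?_, funext hθ2, ht1⟩
  rw [mem_sphere_zero_iff_norm]
  apply le_antisymm
  · rw [pi_norm_le_iff_of_nonneg zero_le_one]
    intro i
    rw [Real.norm_eq_abs, abs_le]
    exact hθ1 i
  · by_contra h
    push Not at h
    rw [pi_norm_lt_iff one_pos] at h
    have h4 : ‖x‖ < ‖x‖ := by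
      have h0 : 0 < ‖x‖ := by linarith
      rw [pi_norm_lt_iff h0]
      intro i
      have h5 := abs_lt.1 (by rw [← Real.norm_eq_abs]; exact h i)
      have hm := pf_mono hη hηr t
      have h6 := hm h5.1
      have h7 := hm h5.2
      rw [pf_neg_one ht1.1, hn, hθ2 i] at h6
      rw [pf_one ht1.2, hn, hθ2 i] at h7
      rw [Real.norm_eq_abs, abs_lt]
      exact ⟨h6, h7⟩
    exact lt_irrefl _ h4

/-! ### coordinates -/

/-- the coordinates in the plane -/
def pr (k : Fin 3) (x : V) : P2 := fun i => x (k.succAbove i)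

/-- the point with given coordinates -/
def em (k : Fin 3) (y : P2) (a : ℝ) : V := Fin.insertNth k a y

theorem em_self (k : Fin 3) (y : P2) (a : ℝ) : em k y a k = a := by
  unfold em; rw [Fin.insertNth_apply_same]

theorem em_succ (k : Fin 3) (y : P2) (a : ℝ) (i : Fin 2) : em k y a (k.succAbove i) = y i := by
  unfold em; rw [Fin.insertNth_apply_succAbove]

theorem pr_em (k : Fin 3) (y : P2) (a : ℝ) : pr k (em k y a) = y := funext fun i => em_succ k y a i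

theorem forall_ne {k : Fin 3} {P : Fin 3 → Prop} : (∀ l, l ≠ k → P l) ↔ ∀ i : Fin 2,
    P (k.succAbove i) := by
  constructor
  · intro h i
    exact h _ (Fin.succAbove_ne k i)
  · intro h l hl
    obtain ⟨i, rfl⟩ := Fin.exists_succAbove_eq hl
    exact h i

theorem ext_em {k : Fin 3} {x x' : V} (h1 : x k = x' k) (h2 : pr k x = pr k x') : x = x' := by
  funext l
  by_cases hl : l = k
  · rw [hl, h1]
  · obtain ⟨i, rfl⟩ := Fin.exists_succAbove_eq hl
    exact congrFun h2 i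

theorem em_pr (k : Fin 3) (x : V) : em k (pr k x) (x k) = x :=
  ext_em (em_self _ _ _) (pr_em _ _ _)

theorem pr_le_iff {k : Fin 3} {x c : V} {r : ℝ} (hr : 0 ≤ r) :
    (∀ l, l ≠ k → |x l - c l| ≤ r) ↔ ‖pr k x - pr k c‖ ≤ r := by
  rw [forall_ne, pi_norm_le_iff_of_nonneg hr]
  rfl

theorem pr_lt_iff {k : Fin 3} {x c : V} {r : ℝ} (hr : 0 < r) :
    (∀ l, l ≠ k → |x l - c l| < r) ↔ ‖pr k x - pr k c‖ < r := by
  rw [forall_ne, pi_norm_lt_iff hr]
  rfl

theorem le_pr_iff {k : Fin 3} {x c : V} {r : ℝ} (hr : 0 < r) :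
    (∃ l, l ≠ k ∧ r ≤ |x l - c l|) ↔ r ≤ ‖pr k x - pr k c‖ := by
  rw [← not_lt, ← pr_lt_iff hr]
  push Not
  rfl

theorem continuous_pr (k : Fin 3) : Continuous (pr k) := by
  unfold pr
  fun_prop

theorem norm_pr_le (k : Fin 3) (x : V) : ‖pr k x‖ ≤ ‖x‖ := by
  rw [pi_norm_le_iff_of_nonneg (norm_nonneg _)]
  intro i
  exact norm_le_pi_norm x _

theorem pr_sub (k : Fin 3) (x y : V) : pr k x - pr k y = pr k (x - y) := rfl

/-! ### the collar chart in space -/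

/-- the domain of the collar -/
def XX : Set (P2 × ℝ × ℝ) := S1 ×ˢ (Icc (-1 : ℝ) 1 ×ˢ Icc (-1 : ℝ) 1)

/-- the collar chart -/
noncomputable def Ac (c : V) (k : Fin 3) (r η : ℝ) (p : P2 × ℝ × ℝ) : V :=
  em k (pr k c + pa r η p.1 p.2.2) (c k + η / 2 * p.2.1)

theorem conSet_prod {E F : Type*} [NormedAddCommGroup E] [NormedSpace ℝ E]
    [NormedAddCommGroup F] [NormedSpace ℝ F] {X : Set E} {T : Set F} (hX : ConicalSet X)
    (hT : ConicalSet T) : ConicalSet (X ×ˢ T) := by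
  rintro ⟨x, s⟩ ⟨hx, hs⟩
  obtain ⟨r, hr, h1⟩ := hX x hx
  obtain ⟨r', hr', h2⟩ := hT s hs
  refine ⟨min r r', lt_min hr hr', ?_⟩
  rintro ⟨v, w⟩ hv ⟨hxv, hsw⟩ t ht
  have hv1 : ‖v‖ ≤ min r r' := (norm_fst_le (v, w)).trans hv
  have hv2 : ‖w‖ ≤ min r r' := (norm_snd_le (v, w)).trans hv
  exact ⟨h1 v (hv1.trans (min_le_left _ _)) hxv t ht, h2 w (hv2.trans (min_le_right _ _)) hsw t ht⟩

theorem conSet_XX : ConicalSet XX :=
  conSet_prod (_root_.P073.conicalSet_sphere_pi 2)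
    (conSet_prod (_root_.P073.Convex.conicalSet (convex_Icc _ _))
      (_root_.P073.Convex.conicalSet (convex_Icc _ _)))

theorem isCompact_XX : IsCompact XX :=
  (isCompact_sphere _ _).prod (isCompact_Icc.prod isCompact_Icc)

theorem Ac_k (c : V) (k : Fin 3) (r η : ℝ) (p : P2 × ℝ × ℝ) :
    Ac c k r η p k = c k + η / 2 * p.2.1 := em_self _ _ _

theorem Ac_pr (c : V) (k : Fin 3) (r η : ℝ) (p : P2 × ℝ × ℝ) :
    pr k (Ac c k r η p) - pr k c = pa r η p.1 p.2.2 := by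
  unfold Ac
  rw [pr_em, add_sub_cancel_left]

theorem continuous_Ac (c : V) (k : Fin 3) (r η : ℝ) : Continuous (Ac c k r η) := by
  refine continuous_pi fun l => ?_
  by_cases hl : l = k
  · subst hl
    simp only [Ac_k]
    fun_prop
  · obtain ⟨i, rfl⟩ := Fin.exists_succAbove_eq hl
    unfold Ac
    simp only [em_succ, Pi.add_apply, pa, pf]
    fun_prop

theorem conical_Ac (c : V) (k : Fin 3) (r η : ℝ) {X : Set (P2 × ℝ × ℝ)} (hX : ConicalSet X) :
    ConicalOn (Ac c k r η) X := by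
  intro p hp
  refine _root_.P073.conicalWithinAt_pi (hX p hp) fun l => ?_
  by_cases hl : l = k
  · subst hl
    simp only [Ac_k]
    have h1 : ConicalOn (fun p : P2 × ℝ × ℝ => p.2.1) X :=
      _root_.P073.conicalOn_linear ((LinearMap.fst ℝ ℝ ℝ).comp (LinearMap.snd ℝ P2 (ℝ × ℝ))) hX
    exact (_root_.P073.conicalOn_const (c l) hX).add (h1.const_smul (η / 2)) p hp
  · obtain ⟨i, rfl⟩ := Fin.exists_succAbove_eq hl
    unfold Ac
    simp only [em_succ, Pi.add_apply, pa, pf]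
    have h1 : ConicalOn (fun p : P2 × ℝ × ℝ => p.1 i) X :=
      _root_.P073.conicalOn_linear ((LinearMap.proj i).comp (LinearMap.fst ℝ P2 (ℝ × ℝ))) hX
    have h2 : ConicalOn (fun p : P2 × ℝ × ℝ => p.2.2) X :=
      _root_.P073.conicalOn_linear ((LinearMap.snd ℝ ℝ ℝ).comp (LinearMap.snd ℝ P2 (ℝ × ℝ))) hX
    have h3 : ConicalOn (fun p : P2 × ℝ × ℝ => |p.2.2 - p.1 i|) X := by
      have h4 := h2.sub h1
      have h5 := h4.rmax h4.neg (by fun_prop) (by fun_prop)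
      exact h5
    exact ((_root_.P073.conicalOn_const (pr k c i) hX).add ((h1.const_smul r).sub
      (((_root_.P073.conicalOn_const (1 : ℝ) hX).sub h3).const_smul η))) p hp

theorem Ac_injOn {c : V} {k : Fin 3} {r η : ℝ} (hη : 0 < η) (hηr : η < r) :
    InjOn (Ac c k r η) XX := by
  rintro ⟨θ, τ, t⟩ ⟨hθ, hτ, ht⟩ ⟨θ', τ', t'⟩ ⟨hθ', hτ', ht'⟩ h
  have h1 := congrFun h k
  rw [Ac_k, Ac_k] at h1
  have h2 : pa r η θ t = pa r η θ' t' := by
    have := Ac_pr c k r η (θ, τ, t)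
    rw [h, Ac_pr] at this
    exact this.symm
  obtain ⟨h3, h4⟩ := pa_inj hη hηr hθ hθ' ht ht' h2
  have h5 : τ = τ' := by
    have : η / 2 * τ = η / 2 * τ' := by linarith
    exact mul_left_cancel₀ (by positivity) this
  have h3' : θ = θ' := h3
  have h4' : t = t' := h4
  rw [h3', h4', h5]

/-- a point of the box around the annulus is in the collar -/
theorem exists_Ac {c : V} {k : Fin 3} {r η : ℝ} (hη : 0 < η) (hηr : η < r) {x : V}
    (h0 : |x k - c k| < η / 2) (h1 : r - η ≤ ‖pr k x - pr k c‖)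
    (h2 : ‖pr k x - pr k c‖ ≤ r + η) :
    ∃ θ ∈ S1, ∃ τ ∈ Ioo (-1 : ℝ) 1,
      Ac c k r η (θ, τ, (r - ‖pr k x - pr k c‖) / η) = x ∧
      (r - ‖pr k x - pr k c‖) / η ∈ Icc (-1 : ℝ) 1 := by
  obtain ⟨θ, hθ, h3, h4⟩ := pa_surj hη hηr h1 h2
  have hη2 : 0 < η / 2 := by positivity
  refine ⟨θ, hθ, (x k - c k) / (η / 2), ?_, ?_, h4⟩
  · rw [mem_Ioo, ← abs_lt, abs_div, abs_of_pos hη2, div_lt_one hη2]
    exact h0
  · refine ext_em (k := k) ?_ ?_
    · rw [Ac_k]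
      show c k + η / 2 * ((x k - c k) / (η / 2)) = x k
      rw [mul_div_cancel₀ _ hη2.ne']
      ring
    · have h5 := Ac_pr c k r η (θ, (x k - c k) / (η / 2), (r - ‖pr k x - pr k c‖) / η)
      rw [sub_eq_iff_eq_add] at h5
      rw [h5]
      show pa r η θ ((r - ‖pr k x - pr k c‖) / η) + pr k c = pr k x
      rw [h3]
      abel

end Vale.Agent.P073.H705.DR
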