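import Vale.Agent.P073.H705.DR1
import Vale.Agent.P073.PA260.SpecDisc

/-!
# P073, row T2 (disc replacement): the data for the disc lemma
-/

open Set Metric Topology Filter

namespace Vale.Agent.P073.H705.DR

open Vale.Agent.P073.St (V)
open Vale.Agent.P073.RT (App dsk plt plo)
open _root_.P073 (ConHomeo ConicalOn ConicalWithinAt ConBall ConicalSet)
open _root_.P073.PA691 (P2 S1 Q0)

/-! ### plates -/

theorem mem_plt {c : V} {k : Fin 3} {r η : ℝ} (hr : 0 ≤ r) {x : V} :
    x ∈ plt c k r η ↔ |x k - c k| ≤ η ∧ ‖pr k x - pr k c‖ ≤ r :=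
  and_congr Iff.rfl (pr_le_iff hr)

theorem mem_plo {c : V} {k : Fin 3} {r η : ℝ} (hr : 0 < r) {x : V} :
    x ∈ plo c k r η ↔ |x k - c k| < η ∧ ‖pr k x - pr k c‖ < r :=
  and_congr Iff.rfl (pr_lt_iff hr)

theorem mem_dsk {c : V} {k : Fin 3} {r : ℝ} (hr : 0 ≤ r) {x : V} :
    x ∈ dsk c k r ↔ x k = c k ∧ ‖pr k x - pr k c‖ ≤ r :=
  and_congr Iff.rfl (pr_le_iff hr)

theorem plo_subset_plt {c : V} {k : Fin 3} {r η : ℝ} : plo c k r η ⊆ plt c k r η :=
  fun _ hx => ⟨hx.1.le, fun l hl => (hx.2 l hl).le⟩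

theorem plt_mono {c : V} {k : Fin 3} {r r' η η' : ℝ} (hr : r ≤ r') (hη : η ≤ η') :
    plt c k r η ⊆ plt c k r' η' :=
  fun _ hx => ⟨hx.1.trans hη, fun l hl => (hx.2 l hl).trans hr⟩

theorem isOpen_plo {c : V} {k : Fin 3} {r η : ℝ} (hr : 0 < r) : IsOpen (plo c k r η) := by
  have h : plo c k r η = {x | |x k - c k| < η} ∩ {x | ‖pr k x - pr k c‖ < r} := by
    ext x; exact mem_plo hr
  rw [h]
  have hc := continuous_pr k
  exact (isOpen_lt (by fun_prop) continuous_const).inter (isOpen_lt (by fun_prop) continuous_const)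

theorem isCompact_plt {c : V} {k : Fin 3} {r η : ℝ} (hr : 0 ≤ r) : IsCompact (plt c k r η) := by
  have h : plt c k r η = {x | |x k - c k| ≤ η} ∩ {x | ‖pr k x - pr k c‖ ≤ r} := by
    ext x; exact mem_plt hr
  have hc := continuous_pr k
  have hcl : IsClosed (plt c k r η) := by
    rw [h]
    exact (isClosed_le (by fun_prop) continuous_const).inter
      (isClosed_le (by fun_prop) continuous_const)
  refine Metric.isCompact_of_isClosed_isBounded hcl ?_
  refine (Metric.isBounded_closedBall (x := c) (r := max r η)).subset fun x hx => ?_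
  rw [mem_closedBall, dist_eq_norm, pi_norm_le_iff_of_nonneg (le_max_of_le_left hr)]
  intro l
  rw [Real.norm_eq_abs]
  by_cases hl : l = k
  · subst hl
    exact hx.1.trans (le_max_right _ _)
  · exact (hx.2 l hl).trans (le_max_left _ _)

/-! ### homeomorphisms of open sets -/

theorem image_isOpen {Ω Λ : Set V} {g : V → V} (hΛ : IsOpen Λ) (hg : St.IsHomeo Ω Λ g) {U : Set V}
    (hU : IsOpen U) (hUΩ : U ⊆ Ω) : IsOpen (g '' U) := by
  obtain ⟨h, ⟨h1, h2⟩, hc, hc'⟩ := hg
  have h3 : g '' U = Λ ∩ h ⁻¹' U := by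
    ext y
    constructor
    · rintro ⟨x, hx, rfl⟩
      refine ⟨(h1 x (hUΩ hx)).1, ?_⟩
      show h (g x) ∈ U
      rw [(h1 x (hUΩ hx)).2]
      exact hx
    · rintro ⟨hy, hy2⟩
      exact ⟨h y, hy2, (h2 y hy).2⟩
  rw [h3]
  exact hc'.isOpen_inter_preimage hΛ hU

/-! ### the embedding of the square -/

/-- the embedding of the square, as an affine map -/
noncomputable def emA (c : V) (k : Fin 3) (R : ℝ) : P2 →ᵃ[ℝ] V where
  toFun y := em k (pr k c + R • y) (c k)
  linear :=
    { toFun := fun y => em k (R • y) 0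
      map_add' := fun v w => by
        refine ext_em (k := k) ?_ ?_
        · simp [em_self]
        · rw [pr_em]
          show _ = pr k (em k (R • v) 0) + pr k (em k (R • w) 0)
          rw [pr_em, pr_em, smul_add]
      map_smul' := fun a v => by
        refine ext_em (k := k) ?_ ?_
        · simp [em_self]
        · rw [pr_em]
          show _ = a • pr k (em k (R • v) 0)
          rw [pr_em, smul_comm] }
  map_vadd' := fun p v => by
    refine ext_em (k := k) ?_ ?_
    · show em k _ (c k) k = em k (R • v) 0 k + em k _ (c k) k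
      simp [em_self]
    · show pr k (em k _ (c k)) = pr k (em k (R • v) 0) + pr k (em k _ (c k))
      rw [pr_em, pr_em, pr_em, vadd_eq_add, smul_add]
      abel

theorem emA_apply (c : V) (k : Fin 3) (R : ℝ) (y : P2) :
    emA c k R y = em k (pr k c + R • y) (c k) := rfl

theorem emA_k (c : V) (k : Fin 3) (R : ℝ) (y : P2) : emA c k R y k = c k := em_self _ _ _

theorem emA_pr (c : V) (k : Fin 3) (R : ℝ) (y : P2) :
    pr k (emA c k R y) - pr k c = R • y := by
  rw [emA_apply, pr_em, add_sub_cancel_left]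

theorem emA_injective (c : V) (k : Fin 3) {R : ℝ} (hR : 0 < R) :
    Function.Injective (emA c k R) := by
  intro y y' h
  have h1 := emA_pr c k R y
  rw [h, emA_pr] at h1
  exact (smul_right_injective P2 hR.ne' h1).symm

theorem continuous_emA (c : V) (k : Fin 3) (R : ℝ) : Continuous (emA c k R) :=
  AffineMap.continuous_of_finiteDimensional _

theorem emA_image_of {c : V} {k : Fin 3} {R : ℝ} (hR : 0 < R) {P : ℝ → Prop} {S : Set P2}
    (hS : ∀ y, y ∈ S ↔ P (R * ‖y‖)) :
    emA c k R '' S = {x | x k = c k ∧ P ‖pr k x - pr k c‖} := by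
  ext x
  constructor
  · rintro ⟨y, hy, rfl⟩
    refine ⟨emA_k _ _ _ _, ?_⟩
    rw [emA_pr, norm_smul, Real.norm_of_nonneg hR.le]
    exact (hS y).1 hy
  · rintro ⟨h1, h2⟩
    have h3 : R • (R⁻¹ • (pr k x - pr k c)) = pr k x - pr k c := by
      rw [smul_smul, mul_inv_cancel₀ hR.ne', one_smul]
    refine ⟨R⁻¹ • (pr k x - pr k c), ?_, ?_⟩
    · rw [hS, norm_smul, norm_inv, Real.norm_of_nonneg hR.le, ← mul_assoc,
        mul_inv_cancel₀ hR.ne', one_mul]
      exact h2
    · refine ext_em (k := k) ?_ ?_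
      · rw [emA_k, h1]
      · have h4 := emA_pr c k R (R⁻¹ • (pr k x - pr k c))
        rw [h3, sub_left_inj] at h4
        exact h4

theorem emA_image_Q0 {c : V} {k : Fin 3} {R : ℝ} (hR : 0 < R) :
    emA c k R '' Q0 = dsk c k R := by
  rw [emA_image_of hR (P := fun t => t ≤ R) (fun y => by
    rw [mem_closedBall_zero_iff]
    exact ⟨fun h => by nlinarith, fun h => by
      by_contra hn
      push Not at hn
      nlinarith⟩)]
  ext x
  exact (mem_dsk hR.le).symm

/-- the boundary of the square -/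
def bdk (c : V) (k : Fin 3) (r : ℝ) : Set V := {x | x k = c k ∧ ‖pr k x - pr k c‖ = r}

theorem emA_image_S1 {c : V} {k : Fin 3} {R : ℝ} (hR : 0 < R) :
    emA c k R '' S1 = bdk c k R := by
  rw [emA_image_of hR (P := fun t => t = R) (fun y => by
    rw [mem_sphere_zero_iff_norm]
    exact ⟨fun h => by rw [h, mul_one], fun h => mul_left_cancel₀ hR.ne' (by rw [h, mul_one])⟩)]
  rfl

theorem conBall_dsk (c : V) (k : Fin 3) {r : ℝ} (hr : 0 < r) :
    ConBall 2 (dsk c k r) (bdk c k r) := by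
  have h := _root_.P073.ConBall.image_affine (_root_.P073.conBall_std 2) (emA c k r)
    (emA_injective c k hr) (continuous_emA c k r)
  rwa [emA_image_Q0 hr, emA_image_S1 hr] at h

/-! ### the scaling of the plane -/

/-- scaling, as an affine map -/
noncomputable def scA (ρ : ℝ) : P2 →ᵃ[ℝ] P2 := (ρ • LinearMap.id : P2 →ₗ[ℝ] P2).toAffineMap

theorem scA_apply (ρ : ℝ) (y : P2) : scA ρ y = ρ • y := rfl

theorem scA_injective {ρ : ℝ} (hρ : 0 < ρ) : Function.Injective (scA ρ) :=
  smul_right_injective P2 hρ.ne'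

theorem continuous_scA (ρ : ℝ) : Continuous (scA ρ) :=
  AffineMap.continuous_of_finiteDimensional _

theorem conBall_scA {ρ : ℝ} (hρ : 0 < ρ) : ConBall 2 (scA ρ '' Q0) (scA ρ '' S1) :=
  _root_.P073.ConBall.image_affine (_root_.P073.conBall_std 2) (scA ρ) (scA_injective hρ)
    (continuous_scA ρ)

/-- scaling of the circle, as a conical homeomorphism -/
noncomputable def zS {ρ : ℝ} (hρ : 0 < ρ) : ConHomeo S1 (scA ρ '' S1) :=
  ConHomeo.ofCompact (isCompact_sphere _ _) (fun y => scA ρ y) (continuous_scA ρ).continuousOn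
    (scA_injective hρ).injOn
    (_root_.P073.conicalOn_of_affine (scA ρ) (_root_.P073.conicalSet_sphere_pi 2)) rfl

theorem zS_apply {ρ : ℝ} (hρ : 0 < ρ) (y : P2) : (zS hρ).toFun y = ρ • y := by
  unfold zS
  rw [ConHomeo.ofCompact_toFun]
  rfl

/-! ### the estimate on the annulus -/

theorem pa_sub_le {r η t : ℝ} {θ : P2} (hη : 0 < η) (hθ : θ ∈ S1) (ht : t ∈ Icc (-1 : ℝ) 1) :
    ‖pa r η θ t - r • θ‖ ≤ η := by
  rw [pi_norm_le_iff_of_nonneg hη.le]
  intro i
  have h1 : |θ i| ≤ 1 := by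
    have h2 : ‖θ‖ = 1 := mem_sphere_zero_iff_norm.1 hθ
    rw [← h2, ← Real.norm_eq_abs]; exact norm_le_pi_norm θ i
  have h2 : |t - θ i| ≤ 2 := by
    rw [abs_le] at h1 ⊢
    constructor <;> linarith [ht.1, ht.2, h1.1, h1.2]
  have h3 : 0 ≤ |t - θ i| := abs_nonneg _
  show ‖pf r η t (θ i) - r * θ i‖ ≤ η
  unfold pf
  rw [Real.norm_eq_abs, abs_le]
  constructor <;> nlinarith

end Vale.Agent.P073.H705.DR
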