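import Vale.Agent.P073.H705.DR2

/-!
# P073, row T2 (disc replacement): `specDR`
-/

open Set Metric Topology Filter

namespace Vale.Agent.P073.H705.DR

open Vale.Agent.P073.St (V)
open Vale.Agent.P073.RT (App dsk plt plo)
open _root_.P073 (ConHomeo ConicalOn ConicalWithinAt ConBall ConicalSet)
open _root_.P073.PA691 (P2 S1 Q0)

/-- the collar lies in the thick plate, away from its centre -/
theorem Ac_mem {c : V} {k : Fin 3} {r η : ℝ} (hη : 0 < η) (hr : 2 * η < r) {p : P2 × ℝ × ℝ}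
    (hp : p ∈ XX) : Ac c k r η p ∈ plt c k (r + 2 * η) (2 * η) ∧
      ‖pr k (Ac c k r η p) - pr k c‖ = r - η * p.2.2 ∧ |Ac c k r η p k - c k| = η / 2 * |p.2.1| := by
  obtain ⟨θ, τ, t⟩ := p
  obtain ⟨hθ, hτ, ht⟩ := hp
  have h1 : ‖pr k (Ac c k r η (θ, τ, t)) - pr k c‖ = r - η * t := by
    rw [Ac_pr]
    exact pa_norm hη (by linarith) hθ ht
  have h2 : |Ac c k r η (θ, τ, t) k - c k| = η / 2 * |τ| := by
    rw [Ac_k, add_sub_cancel_left, abs_mul, abs_of_pos (by positivity : (0 : ℝ) < η / 2)]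
  have hτ' : |τ| ≤ 1 := abs_le.2 hτ
  have ht' : t ∈ Icc (-1 : ℝ) 1 := ht
  refine ⟨(mem_plt (by linarith)).2 ⟨?_, ?_⟩, h1, h2⟩
  · rw [h2]; nlinarith
  · rw [h1]; nlinarith [ht'.1]

/-- the open part of the collar -/
theorem Ac_image_open {c : V} {k : Fin 3} {r η : ℝ} (hη : 0 < η) (hr : 2 * η < r) :
    Ac c k r η '' (S1 ×ˢ (Ioo (-1 : ℝ) 1 ×ˢ Ioo (-1 : ℝ) 1)) =
      {x | |x k - c k| < η / 2} ∩ ({x | r - η < ‖pr k x - pr k c‖} ∩
        {x | ‖pr k x - pr k c‖ < r + η}) := by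
  have hη2 : 0 < η / 2 := by positivity
  ext x
  constructor
  · rintro ⟨⟨θ, τ, t⟩, ⟨hθ, hτ, ht⟩, rfl⟩
    have ht' : t ∈ Ioo (-1 : ℝ) 1 := ht
    have hτ' : |τ| < 1 := abs_lt.2 hτ
    obtain ⟨-, h1, h2⟩ := Ac_mem (c := c) (k := k) hη hr (p := (θ, τ, t))
      ⟨hθ, Ioo_subset_Icc_self hτ, Ioo_subset_Icc_self ht⟩
    refine ⟨?_, ?_, ?_⟩
    · show |Ac c k r η (θ, τ, t) k - c k| < η / 2
      rw [h2]
      show η / 2 * |τ| < η / 2
      nlinarith
    · show r - η < ‖pr k (Ac c k r η (θ, τ, t)) - pr k c‖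
      rw [h1]
      show r - η < r - η * t
      nlinarith [ht'.2]
    · show ‖pr k (Ac c k r η (θ, τ, t)) - pr k c‖ < r + η
      rw [h1]
      show r - η * t < r + η
      nlinarith [ht'.1]
  · rintro ⟨h0, h1, h2⟩
    have h1' : r - η < ‖pr k x - pr k c‖ := h1
    have h2' : ‖pr k x - pr k c‖ < r + η := h2
    obtain ⟨θ, hθ, τ, hτ, h3, h4⟩ := exists_Ac hη (by linarith : η < r) h0 h1'.le h2'.le
    refine ⟨(θ, τ, (r - ‖pr k x - pr k c‖) / η), ⟨hθ, hτ, ?_⟩, h3⟩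
    show _ ∈ Ioo (-1 : ℝ) 1
    rw [mem_Ioo, lt_div_iff₀ hη, div_lt_iff₀ hη]
    constructor <;> linarith

/-- the middle circle of the collar -/
theorem Ac_image_mid {c : V} {k : Fin 3} {r η : ℝ} (hη : 0 < η) (hr : 2 * η < r) :
    Ac c k r η '' (S1 ×ˢ ({0} ×ˢ {0})) = bdk c k r := by
  ext x
  constructor
  · rintro ⟨⟨θ, τ, t⟩, ⟨hθ, hτ, ht⟩, rfl⟩
    have hτ' : τ = 0 := hτ
    have ht' : t = 0 := ht
    subst hτ'
    subst ht'
    refine ⟨?_, ?_⟩
    · rw [Ac_k]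
      show c k + η / 2 * 0 = c k
      ring
    · rw [Ac_pr]
      show ‖pa r η θ 0‖ = r
      rw [pa_norm hη (by linarith) hθ (by constructor <;> norm_num)]
      ring
  · rintro ⟨h1, h2⟩
    obtain ⟨θ, hθ, τ, hτ, h3, h4⟩ := exists_Ac (c := c) (k := k) (x := x) hη
      (by linarith : η < r) (by rw [h1, sub_self, abs_zero]; positivity) (by rw [h2]; linarith)
      (by rw [h2]; linarith)
    rw [h2, sub_self, zero_div] at h3
    have h5 := congrFun h3 k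
    rw [Ac_k, h1] at h5
    have h6 : τ = 0 := by
      have h7 : η / 2 * τ = 0 := by
        have h8 : c k + η / 2 * τ = c k := h5
        linarith
      rcases mul_eq_zero.1 h7 with h | h
      · exact absurd h (by positivity)
      · exact h
    subst h6
    exact ⟨(θ, 0, 0), ⟨hθ, rfl, rfl⟩, h3⟩

/-- the collar of the boundary curve in the target -/
noncomputable def col {Ω K : Set V} {g : V → V} {c : V} {k : Fin 3} {r η : ℝ} (hη : 0 < η)
    (hr : 2 * η < r) (hgc : ContinuousOn g Ω) (hgi : InjOn g Ω)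
    (hcon : ∀ x ∈ Ω \ K, ConicalWithinAt g Ω x) (hsub : plt c k (r + 2 * η) (2 * η) ⊆ Ω)
    (hK : ∀ x ∈ plt c k (r + 2 * η) (2 * η), (∃ l, l ≠ k ∧ r - 2 * η ≤ |x l - c l|) → x ∉ K) :
    ConHomeo (S1 ×ˢ (Icc (-1 : ℝ) 1 ×ˢ Icc (-1 : ℝ) 1)) ((fun p => g (Ac c k r η p)) '' XX) :=
  have hmaps : MapsTo (Ac c k r η) XX Ω := fun _ hp => hsub (Ac_mem hη hr hp).1
  ConHomeo.ofCompact isCompact_XX (fun p => g (Ac c k r η p))
    (hgc.comp (continuous_Ac c k r η).continuousOn hmaps)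
    (hgi.comp (Ac_injOn hη (by linarith)) hmaps)
    (fun p hp => by
      refine ConicalWithinAt.comp (h := Ac c k r η) (Y := Ω) ?_ (conical_Ac c k r η conSet_XX p hp)
        hmaps (continuous_Ac c k r η).continuousWithinAt
      obtain ⟨h1, h2, -⟩ := Ac_mem (c := c) (k := k) hη hr hp
      refine hcon _ ⟨hmaps hp, hK _ h1 ?_⟩
      rw [le_pr_iff (by linarith), h2]
      have h3 : p.2.2 ≤ 1 := hp.2.2.2
      nlinarith) rfl

theorem col_toFun {Ω K : Set V} {g : V → V} {c : V} {k : Fin 3} {r η : ℝ} (hη : 0 < η)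
    (hr : 2 * η < r) (hgc : ContinuousOn g Ω) (hgi : InjOn g Ω)
    (hcon : ∀ x ∈ Ω \ K, ConicalWithinAt g Ω x) (hsub : plt c k (r + 2 * η) (2 * η) ⊆ Ω)
    (hK : ∀ x ∈ plt c k (r + 2 * η) (2 * η), (∃ l, l ≠ k ∧ r - 2 * η ≤ |x l - c l|) → x ∉ K) :
    (col hη hr hgc hgi hcon hsub hK).toFun = fun p => g (Ac c k r η p) := by
  unfold col
  exact ConHomeo.ofCompact_toFun _ _ _ _ _ _

/-- a conical disc whose points are close, as seen in the source, to the points of the square -/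
theorem exists_disc {Ω Λ : Set V} {g h : V → V} {c : V} {k : Fin 3} {r η : ℝ} (hη : 0 < η)
    (hr : 2 * η < r) (hΛ : IsOpen Λ) (hinv : St.IsInv Ω Λ g h) (hgc : ContinuousOn g Ω)
    (hhc : ContinuousOn h Λ) (happ : App Ω Λ g) (hsub : plt c k (r + 2 * η) (2 * η) ⊆ Ω) :
    ∃ (D₀ : Set V) (γ : ConHomeo Q0 D₀), ∀ y ∈ Q0, γ.toFun y ∈ Λ ∧
      ‖h (γ.toFun y) - emA c k (r + η) y‖ ≤ η / 4 := by
  have hR : 0 < r + η := by linarith
  have hdsk : ∀ y ∈ Q0, emA c k (r + η) y ∈ plt c k (r + 2 * η) (2 * η) := by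
    intro y hy
    rw [mem_plt (by linarith), emA_k, emA_pr, sub_self, abs_zero, norm_smul,
      Real.norm_of_nonneg hR.le]
    have h1 : ‖y‖ ≤ 1 := mem_closedBall_zero_iff.1 hy
    exact ⟨by linarith, by nlinarith⟩
  set C : Set V := emA c k (r + η) '' Q0 with hC
  have hCΩ : C ⊆ Ω := by
    rintro _ ⟨y, hy, rfl⟩
    exact hsub (hdsk y hy)
  have hCc : IsCompact C := (isCompact_closedBall _ _).image (continuous_emA _ _ _)
  have hgC : IsCompact (g '' C) := hCc.image_of_continuousOn (hgc.mono hCΩ)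
  have hcat : ∀ a ∈ g '' C, ContinuousAt h a := by
    rintro _ ⟨x, hx, rfl⟩
    exact hhc.continuousAt (hΛ.mem_nhds (hinv.1 x (hCΩ hx)).1)
  have hη4 : 0 < η / 4 := by positivity
  have hu := hgC.uniformContinuousAt_of_continuousAt h hcat (Metric.dist_mem_uniformity hη4)
  obtain ⟨δ, hδ, hδ2⟩ := Metric.mem_uniformity_dist.1 hu
  obtain ⟨h₁, hh₁⟩ := happ (δ / 2) (by positivity)
  have hmaps : MapsTo (fun y => emA c k (r + η) y) Q0 Ω := fun y hy => hsub (hdsk y hy)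
  have hQ : ConicalSet Q0 := (_root_.P073.conBall_std 2).conicalSet
  refine ⟨_, ConHomeo.ofCompact (isCompact_closedBall _ _)
    (fun y => h₁.toFun (emA c k (r + η) y))
    (h₁.cont.comp (continuous_emA _ _ _).continuousOn hmaps)
    (h₁.injOn.comp (emA_injective c k hR).injOn hmaps)
    (h₁.conical.comp (_root_.P073.conicalOn_of_affine (emA c k (r + η)) hQ) hmaps
      (continuous_emA _ _ _).continuousOn) rfl, ?_⟩
  rw [ConHomeo.ofCompact_toFun]
  intro y hy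
  have hx : emA c k (r + η) y ∈ Ω := hmaps hy
  refine ⟨h₁.mapsTo hx, ?_⟩
  have h1 : dist (g (emA c k (r + η) y)) (h₁.toFun (emA c k (r + η) y)) < δ := by
    rw [dist_comm, dist_eq_norm]
    have := hh₁ _ hx
    linarith
  have h2 := hδ2 h1 ⟨_, ⟨y, hy, rfl⟩, rfl⟩
  have h3 : dist (h (g (emA c k (r + η) y))) (h (h₁.toFun (emA c k (r + η) y))) < η / 4 := h2
  rw [(hinv.1 _ hx).2, dist_comm, dist_eq_norm] at h3
  exact h3.le

end Vale.Agent.P073.H705.DR
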