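import Vale.Agent.P073.H705.DR3

/-!
# P073, row T2 (disc replacement): `specDR`
-/

open Set Metric Topology Filter

namespace Vale.Agent.P073.H705.DR

open Vale.Agent.P073.St (V)
open Vale.Agent.P073.RT (App dsk plt plo)
open _root_.P073 (ConHomeo ConicalOn ConicalWithinAt ConBall ConicalSet)
open _root_.P073.PA691 (P2 S1 Q0)

/-- the disc in the target -/
theorem exists_target {Ω Λ K : Set V} {g : V → V} {c : V} {k : Fin 3} {r η : ℝ}
    (hΛ : IsOpen Λ) (hg : St.IsHomeo Ω Λ g)
    (hcon : ∀ x ∈ Ω \ K, ConicalWithinAt g Ω x) (happ : App Ω Λ g) (hη : 0 < η)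
    (hr : 2 * η < r) (hsub : plt c k (r + 2 * η) (2 * η) ⊆ Ω)
    (hK : ∀ x ∈ plt c k (r + 2 * η) (2 * η), (∃ l, l ≠ k ∧ r - 2 * η ≤ |x l - c l|) → x ∉ K) :
    ∃ D : Set V, ConBall 2 D (g '' bdk c k r) ∧ D \ g '' bdk c k r ⊆ g '' plo c k r η := by
  have hg' := hg
  obtain ⟨h, hinv, hgc, hhc⟩ := hg'
  have hgi : InjOn g Ω := fun x hx x' hx' he => by
    rw [← (hinv.1 x hx).2, he, (hinv.1 x' hx').2]
  have hr0 : 0 < r := by linarith
  have hηr : η < r := by linarith
  obtain ⟨D₀, γ, hγ⟩ := exists_disc hη hr hΛ hinv hgc hhc happ hsub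
  have hpl : plt c k r η ⊆ Ω := (plt_mono (by linarith) (by linarith)).trans hsub
  have hmaps : ∀ p ∈ XX, Ac c k r η p ∈ Ω := fun _ hp => hsub (Ac_mem hη hr hp).1
  -- the point of the source
  have hw : ∀ y ∈ Q0, h (γ.toFun y) ∈ Ω ∧ g (h (γ.toFun y)) = γ.toFun y ∧
      |h (γ.toFun y) k - c k| ≤ η / 4 ∧
      ‖pr k (h (γ.toFun y)) - pr k c - (r + η) • y‖ ≤ η / 4 := by
    intro y hy
    obtain ⟨h1, h2⟩ := hγ y hy
    refine ⟨(hinv.2 _ h1).1, (hinv.2 _ h1).2, ?_, ?_⟩
    · have h3 := (norm_le_pi_norm (h (γ.toFun y) - emA c k (r + η) y) k).trans h2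
      rw [Pi.sub_apply, emA_k, Real.norm_eq_abs] at h3
      exact h3
    · have h3 := (norm_pr_le k (h (γ.toFun y) - emA c k (r + η) y)).trans h2
      rw [← pr_sub] at h3
      have h4 := emA_pr c k (r + η) y
      have h5 : pr k (h (γ.toFun y)) - pr k c - (r + η) • y =
          pr k (h (γ.toFun y)) - pr k (emA c k (r + η) y) := by
        rw [← h4]; abel
      rw [h5]
      exact h3
  set ρ : ℝ := r / (r + η) with hρd
  have hR : 0 < r + η := by linarith
  have hρ : 0 < ρ := by positivity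
  have hρ1 : ρ < 1 := by rw [hρd, div_lt_one hR]; linarith
  have hρR : (r + η) * ρ = r := by rw [hρd]; field_simp
  let κ := col hη hr hgc hgi hcon hsub hK
  have hκ : κ.toFun = fun p => g (Ac c k r η p) := col_toFun hη hr hgc hgi hcon hsub hK
  have hinO : ∀ x ∈ Ω, |x k - c k| < η → ‖pr k x - pr k c‖ < r → g x ∈ g '' plo c k r η :=
    fun x _ h1 h2 => mem_image_of_mem g ((mem_plo hr0).2 ⟨h1, h2⟩)
  have hinI : ∀ x ∈ Ω, r < ‖pr k x - pr k c‖ → g x ∈ Λ \ g '' plt c k r η := by
    intro x hx h1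
    refine ⟨(hinv.1 x hx).1, ?_⟩
    rintro ⟨x', hx', he⟩
    have h2 := hgi (hpl hx') hx he
    rw [h2, mem_plt hr0.le] at hx'
    linarith [hx'.2]
  have hκim : ∀ S ⊆ XX, κ.toFun '' S = g '' (Ac c k r η '' S) := by
    intro S _
    rw [hκ, image_image]
  have hdisc := _root_.P073.PA260.specDisc (g '' plo c k r η) (Λ \ g '' plt c k r η) _ D₀ κ γ
    (scA ρ '' S1) (scA ρ '' Q0) (zS hρ)
    (image_isOpen hΛ hg (isOpen_plo hr0) (plo_subset_plt.trans hpl))
    (hΛ.sdiff ((isCompact_plt hr0.le).image_of_continuousOn (hgc.mono hpl)).isClosed)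
    (by
      rw [disjoint_left]
      rintro _ ⟨x, hx, rfl⟩ ⟨_, h2⟩
      exact h2 ⟨x, plo_subset_plt hx, rfl⟩)
    (by
      rw [hκim _ (prod_mono (le_refl _) (prod_mono Ioo_subset_Icc_self Ioo_subset_Icc_self)),
        Ac_image_open hη hr]
      have hc := continuous_pr k
      refine image_isOpen hΛ hg ((isOpen_lt (by fun_prop) continuous_const).inter
        ((isOpen_lt continuous_const (by fun_prop)).inter
          (isOpen_lt (by fun_prop) continuous_const))) ?_
      rintro x ⟨h1, -, h3⟩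
      refine hsub ((mem_plt (by linarith)).2 ⟨?_, ?_⟩)
      · have h1' : |x k - c k| < η / 2 := h1
        linarith
      · have h3' : ‖pr k x - pr k c‖ < r + η := h3
        linarith)
    (by
      intro θ hθ τ hτ t ht
      rw [hκ]
      have hp : (θ, τ, t) ∈ XX := ⟨hθ, hτ, ⟨by linarith [ht.1], ht.2⟩⟩
      obtain ⟨h1, h2, h3⟩ := Ac_mem (c := c) (k := k) hη hr hp
      refine hinO _ (hmaps _ hp) ?_ ?_
      · rw [h3]
        have h4 : |τ| ≤ 1 := abs_le.2 hτ
        show η / 2 * |τ| < η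
        nlinarith
      · rw [h2]
        show r - η * t < r
        nlinarith [ht.1])
    (by
      intro θ hθ τ hτ t ht
      rw [hκ]
      have hp : (θ, τ, t) ∈ XX := ⟨hθ, hτ, ⟨ht.1, by linarith [ht.2]⟩⟩
      obtain ⟨h1, h2, h3⟩ := Ac_mem (c := c) (k := k) hη hr hp
      refine hinI _ (hmaps _ hp) ?_
      rw [h2]
      show r < r - η * t
      nlinarith [ht.2])
    (conBall_scA hρ)
    (by
      rintro _ ⟨y, hy, rfl⟩
      rw [mem_ball_zero_iff, scA_apply, norm_smul, Real.norm_of_nonneg hρ.le]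
      have h1 : ‖y‖ ≤ 1 := mem_closedBall_zero_iff.1 hy
      nlinarith)
    ⟨0, mem_closedBall_self zero_le_one, by rw [scA_apply, smul_zero]⟩
    (by
      rintro ⟨y, hy, h0⟩
      rw [scA_apply] at h0
      have h1 : ‖y‖ = 1 := mem_sphere_zero_iff_norm.1 hy
      rcases smul_eq_zero.1 h0 with h2 | h2
      · exact hρ.ne' h2
      · rw [h2, norm_zero] at h1
        exact zero_ne_one h1)
    (by
      intro y hy
      obtain ⟨h1, h2, h3, h4⟩ := hw y hy
      rw [← h2]
      rcases lt_trichotomy ‖pr k (h (γ.toFun y)) - pr k c‖ r with h5 | h5 | h5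
      · exact Or.inl (Or.inl (hinO _ h1 (by linarith) h5))
      · refine Or.inr ?_
        obtain ⟨θ, hθ, τ, hτ, h6, h7⟩ := exists_Ac (c := c) (k := k) (x := h (γ.toFun y)) hη hηr
          (by linarith) (by rw [h5]; linarith) (by rw [h5]; linarith)
        rw [h5, sub_self, zero_div] at h6
        refine ⟨(θ, τ, 0), ⟨hθ, hτ, rfl⟩, ?_⟩
        rw [hκ]
        show g (Ac c k r η (θ, τ, 0)) = _
        rw [h6]
      · exact Or.inl (Or.inr (hinI _ h1 h5)))
    (by
      intro y hy θ hθ τ hτ t ht he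
      obtain ⟨h1, h2, h3, h4⟩ := hw y hy
      have hp : (θ, τ, t) ∈ XX := ⟨hθ, hτ, ht⟩
      have h5 : h (γ.toFun y) = Ac c k r η (θ, τ, t) := by
        refine hgi h1 (hmaps _ hp) ?_
        rw [h2, he, hκ]
      obtain ⟨h6, h7, h8⟩ := Ac_mem (c := c) (k := k) hη hr hp
      rw [← h5] at h7 h8
      constructor
      · rw [mem_Ioo, ← abs_lt]
        have h9 : η / 2 * |τ| ≤ η / 4 := by
          have h10 : |h (γ.toFun y) k - c k| = η / 2 * |τ| := h8
          rw [← h10]; exact h3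
        nlinarith
      · rintro ⟨a, b, ha, hb, hab, h9⟩
        rw [zS_apply] at h9
        have h10 : ‖(r + η) • y - r • θ‖ ≤ η / 4 + η := by
          have h11 := pa_sub_le (r := r) (t := t) hη hθ ht
          have h12 : pr k (h (γ.toFun y)) - pr k c = pa r η θ t := by
            rw [h5, Ac_pr]
          rw [h12] at h4
          have h13 : (r + η) • y - r • θ =
              (pa r η θ t - r • θ) - (pa r η θ t - (r + η) • y) := by abel
          rw [h13]
          refine (norm_sub_le _ _).trans ?_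
          linarith
        have h14 : r • θ + a • ((r + η) • y - r • θ) = 0 := by
          have h15 : (r + η) • (a • y + b • ρ • θ) = 0 := by rw [h9, smul_zero]
          rw [← h15, smul_add, smul_sub, smul_smul, smul_smul, smul_smul, smul_smul, smul_smul]
          have h16 : (r + η) * b * ρ = b * r := by linear_combination b * hρR
          have h17 : r • θ = (a * r) • θ + (b * r) • θ := by
            rw [← add_smul, ← add_mul, hab, one_mul]
          rw [h16, mul_comm (r + η) a, h17]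
          abel
        have h19 : ‖r • θ‖ ≤ η / 4 + η := by
          rw [add_eq_zero_iff_eq_neg] at h14
          rw [h14, norm_neg, norm_smul, Real.norm_of_nonneg ha]
          have h20 : 0 ≤ ‖(r + η) • y - r • θ‖ := norm_nonneg _
          nlinarith
        rw [norm_smul, Real.norm_of_nonneg hr0.le, mem_sphere_zero_iff_norm.1 hθ] at h19
        linarith)
    (by
      obtain ⟨h1, h2, h3, h4⟩ := hw 0 (mem_closedBall_self zero_le_one)
      rw [smul_zero, sub_zero] at h4
      rw [← h2]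
      exact hinO _ h1 (by linarith) (by linarith))
    (by
      obtain ⟨h1, h2, h3, h4⟩ := hw 0 (mem_closedBall_self zero_le_one)
      rw [smul_zero, sub_zero] at h4
      rintro ⟨p, hp, he⟩
      have h5 : Ac c k r η p = h (γ.toFun 0) := by
        refine hgi (hmaps _ hp) h1 ?_
        rw [h2]
        exact he
      obtain ⟨h6, h7, h8⟩ := Ac_mem (c := c) (k := k) hη hr hp
      rw [h5] at h7
      have h9 : p.2.2 ≤ 1 := hp.2.2.2
      nlinarith)
    (by
      intro y hy
      obtain ⟨h1, h2, h3, h4⟩ := hw y (sphere_subset_closedBall hy)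
      rw [← h2]
      refine hinI _ h1 ?_
      have h5 : ‖(r + η) • y‖ = r + η := by
        rw [norm_smul, mem_sphere_zero_iff_norm.1 hy, mul_one, Real.norm_of_nonneg hR.le]
      have h6 := norm_sub_norm_le ((r + η) • y) (pr k (h (γ.toFun y)) - pr k c)
      rw [norm_sub_rev ((r + η) • y) (pr k (h (γ.toFun y)) - pr k c), h5] at h6
      linarith)
  obtain ⟨D, h1, h2, -, -⟩ := hdisc
  have h3 : κ.toFun '' (S1 ×ˢ ({0} ×ˢ {0})) = g '' bdk c k r := by
    rw [← Ac_image_mid hη hr, hκ, image_image]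
  rw [h3] at h1 h2
  exact ⟨D, h1, h2⟩

end Vale.Agent.P073.H705.DR

namespace Vale.Agent.P073.H705

open Vale.Agent.P073.St (V)
open Vale.Agent.P073.RT (App dsk plt plo)
open _root_.P073 (ConHomeo ConicalOn ConicalWithinAt ConBall ConicalSet)
open DR

/-- **Row T2.** -/
theorem specDR : RT.SpecDR := by
  intro Ω Λ K g c k r η hΩ hΛ hKΩ hΩK hg hcon happ hη hr hsub hK
  obtain ⟨D, hD, hDO⟩ := exists_target hΛ hg hcon happ hη hr hsub hK
  have hr0 : 0 < r := by linarith
  obtain ⟨h, hinv, hgc, hhc⟩ := hg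
  have hgi : InjOn g Ω := fun x hx x' hx' he => by
    rw [← (hinv.1 x hx).2, he, (hinv.1 x' hx').2]
  have hds := conBall_dsk c k hr0
  have hbsub : bdk c k r ⊆ plt c k (r + 2 * η) (2 * η) := by
    intro x hx
    refine (mem_plt (by linarith)).2 ⟨?_, ?_⟩
    · rw [hx.1, sub_self, abs_zero]; linarith
    · rw [hx.2]; linarith
  have hbΩ : bdk c k r ⊆ Ω := hbsub.trans hsub
  let φ : ConHomeo (bdk c k r) (g '' bdk c k r) :=
    ConHomeo.ofCompact hds.isCompact_bdry g (hgc.mono hbΩ) (hgi.mono hbΩ)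
      (fun x hx => (hcon x ⟨hbΩ hx, hK x (hbsub hx) ((le_pr_iff (by linarith)).2
        (by rw [hx.2]; linarith))⟩).mono_set (hds.conicalSet_bdry x hx) hbΩ) rfl
  have hφ : φ.toFun = g := ConHomeo.ofCompact_toFun _ _ _ _ _ _
  obtain ⟨e, he, heB⟩ := hds.exists_extend hD φ
  refine ⟨D, e, ?_, ?_⟩
  · rintro x hx ⟨l, hl, hlr⟩
    rw [mem_dsk hr0.le] at hx
    have h1 : x ∈ bdk c k r := by
      refine ⟨hx.1, le_antisymm hx.2 ?_⟩
      exact (le_pr_iff hr0).1 ⟨l, hl, hlr.ge⟩
    rw [he h1, hφ]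
  · intro x hx hlt
    have h1 : x ∉ bdk c k r := by
      intro hb
      rw [pr_lt_iff hr0] at hlt
      exact absurd hb.2 hlt.ne
    refine hDO ⟨e.mapsTo hx, ?_⟩
    rw [← heB]
    rintro ⟨x', hx', he'⟩
    have h2 : x' = x := e.injOn (hds.1 hx') hx he'
    exact h1 (h2 ▸ hx')

end Vale.Agent.P073.H705
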