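import Vale.Agent.P073.H655.RowsM
import Vale.Agent.P073.H655.SameT
import Vale.Agent.P073.HB.Acl2

/-!
# P073, row M1 (Morrey): the double average over a cube
-/

namespace Vale.Agent.P073.H705.Mor

open MeasureTheory Set Filter Topology Metric Vale.Agent.P073.HB
open Vale.Agent.P073.St (V Mat euc)
open scoped ContDiff ENNReal

variable {Ω : Set V} {f : V → V} {F : V → (V →L[ℝ] V)}

/-- The difference of `f` at the distance `v`, integrated over a part of a convex set `Q`. -/
theorem shift_le (hΩ : IsOpen Ω) (hf : ContinuousOn f Ω) (hF : LocallyIntegrableOn F Ω volume)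
    (hw : WeakDeriv volume Ω f F) {Q B : Set V} (hQ : Convex ℝ Q) (hQm : MeasurableSet Q)
    (hQΩ : Q ⊆ Ω) (hB : MeasurableSet B) (v : V) (hBQ : ∀ z ∈ B, z ∈ Q ∧ z + v ∈ Q) :
    ∫⁻ z in B, ‖f (z + v) - f z‖ₑ ≤ ‖v‖ₑ * ∫⁻ z in Q, ‖F z‖ₑ := by
  have hseg : ∀ z ∈ B, ∀ s ∈ Icc (0 : ℝ) 1, z + s • v ∈ Q := by
    intro z hz s hs
    have h1 := hQ (hBQ z hz).1 (hBQ z hz).2 (sub_nonneg.2 hs.2) hs.1 (by ring)
    have e : (1 - s) • z + s • (z + v) = z + s • v := by module
    rwa [e] at h1
  set G : V → ℝ≥0∞ := Q.indicator fun z => ‖F z‖ₑ with hG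
  have hGm : AEMeasurable G volume := by
    rw [hG, aemeasurable_indicator_iff hQm]
    exact (hF.aestronglyMeasurable.mono_measure (Measure.restrict_mono hQΩ le_rfl)).enorm
  have hgood := ae_goodSeg (μ := (volume : Measure V)) hΩ hf hF hw v
  have h1 : ∀ᵐ z ∂(volume.restrict B), ‖f (z + v) - f z‖ₑ ≤
      ‖v‖ₑ * ∫⁻ s in Ioc (0 : ℝ) 1, G (z + 0 + s • v) := by
    filter_upwards [ae_restrict_of_ae hgood, ae_restrict_mem hB] with z hz hzB
    have h2 := (hz fun s hs => hQΩ (hseg z hzB s hs)).enorm_sub_le (0 : V →L[ℝ] V)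
      (t := 0) (t' := 1) ⟨le_rfl, zero_le_one⟩ ⟨zero_le_one, le_rfl⟩
    simp only [one_smul, zero_smul, add_zero, _root_.zero_apply, sub_zero] at h2
    refine h2.trans ?_
    rw [← lintegral_const_mul' _ _ enorm_ne_top]
    refine setLIntegral_mono' measurableSet_Ioc fun s hs => ?_
    have h3 : z + 0 + s • v ∈ Q := by
      rw [add_zero]; exact hseg z hzB s ⟨hs.1.le, hs.2⟩
    rw [hG, indicator_of_mem h3, add_zero, mul_comm]
    exact (F (z + s • v)).le_opENorm v
  calc ∫⁻ z in B, ‖f (z + v) - f z‖ₑ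
      ≤ ∫⁻ z in B, ‖v‖ₑ * ∫⁻ s in Ioc (0 : ℝ) 1, G (z + 0 + s • v) := lintegral_mono_ae h1
    _ = ‖v‖ₑ * ∫⁻ z in B, ∫⁻ s in Ioc (0 : ℝ) 1, G (z + 0 + s • v) :=
        lintegral_const_mul' _ _ enorm_ne_top
    _ ≤ ‖v‖ₑ * ∫⁻ y in Q, G y := by
        refine mul_le_mul_right (lintegral_segAvg_le hGm hB 0 v ?_) _
        intro x hx s hs
        rw [add_zero]; exact hseg x hx s hs
    _ = ‖v‖ₑ * ∫⁻ z in Q, ‖F z‖ₑ := by
        congr 1
        refine setLIntegral_congr_fun hQm fun z hz => ?_
        rw [hG]; exact indicator_of_mem hz _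

/-- The double integral of the differences of `f`. -/
theorem double_le (hΩ : IsOpen Ω) (hf : ContinuousOn f Ω) (hF : LocallyIntegrableOn F Ω volume)
    (hw : WeakDeriv volume Ω f F) {c : V} {r : ℝ} (hQΩ : closedBall c r ⊆ Ω)
    {A B : Set V} (hA : MeasurableSet A) (hB : MeasurableSet B) (hAQ : A ⊆ closedBall c r)
    (hBQ : B ⊆ closedBall c r) :
    ∫⁻ z in A, ∫⁻ y in B, ‖f y - f z‖ₑ ≤
      volume (closedBall (0 : V) (2 * r)) * (ENNReal.ofReal (2 * r) *
        ∫⁻ z in closedBall c r, ‖F z‖ₑ) := by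
  set Q := closedBall c r with hQdef
  have hQm : MeasurableSet Q := measurableSet_closedBall
  set g : V → V := Q.indicator f with hg
  have hgm : Measurable g := by
    classical
    rw [hg, ← piecewise_eq_indicator]
    exact (hf.mono hQΩ).measurable_piecewise continuousOn_const hQm
  -- the kernel
  set k : V → V → ℝ≥0∞ := fun z v =>
    A.indicator 1 z * (B.indicator 1 (z + v) * ‖g (z + v) - g z‖ₑ) with hk
  have hkm : Measurable (Function.uncurry k) := by
    have h1 : Measurable fun q : V × V => q.1 + q.2 := measurable_fst.add measurable_snd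
    have h2 : Measurable fun q : V × V => A.indicator (1 : V → ℝ≥0∞) q.1 :=
      (measurable_one.indicator hA).comp measurable_fst
    have h3 : Measurable fun q : V × V => B.indicator (1 : V → ℝ≥0∞) (q.1 + q.2) :=
      (measurable_one.indicator hB).comp h1
    have h4 : Measurable fun q : V × V => ‖g (q.1 + q.2) - g q.1‖ₑ :=
      ((hgm.comp h1).sub (hgm.comp measurable_fst)).enorm
    exact h2.mul (h3.mul h4)
  have e1 : ∫⁻ z in A, ∫⁻ y in B, ‖f y - f z‖ₑ = ∫⁻ z, ∫⁻ v, k z v := by
    rw [← lintegral_indicator hA]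
    refine lintegral_congr fun z => ?_
    by_cases hz : z ∈ A
    · rw [indicator_of_mem hz, ← lintegral_indicator hB,
        ← lintegral_add_left_eq_self (μ := (volume : Measure V)) _ z]
      refine lintegral_congr fun v => ?_
      simp only [hk, indicator_of_mem hz, Pi.one_apply, one_mul]
      by_cases hv : z + v ∈ B
      · rw [indicator_of_mem hv, indicator_of_mem hv, Pi.one_apply, one_mul, hg,
          indicator_of_mem (hBQ hv), indicator_of_mem (hAQ hz)]
      · rw [indicator_of_notMem hv, indicator_of_notMem hv, zero_mul]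
    · rw [indicator_of_notMem hz]
      simp only [hk, indicator_of_notMem hz, zero_mul, lintegral_zero]
  rw [e1, lintegral_lintegral_swap hkm.aemeasurable]
  have h5 : ∀ v : V, ∫⁻ z, k z v ≤ (closedBall (0 : V) (2 * r)).indicator
      (fun _ => ENNReal.ofReal (2 * r) * ∫⁻ z in Q, ‖F z‖ₑ) v := by
    intro v
    set D : Set V := {z | z ∈ A ∧ z + v ∈ B} with hD
    have hDm : MeasurableSet D := hA.inter (hB.preimage (measurable_add_const v))
    have e2 : ∫⁻ z, k z v = ∫⁻ z in D, ‖f (z + v) - f z‖ₑ := by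
      rw [← lintegral_indicator hDm]
      refine lintegral_congr fun z => ?_
      by_cases hz : z ∈ D
      · rw [indicator_of_mem hz]
        simp only [hk, indicator_of_mem hz.1, indicator_of_mem hz.2, Pi.one_apply, one_mul, hg,
          indicator_of_mem (hBQ hz.2), indicator_of_mem (hAQ hz.1)]
      · rw [indicator_of_notMem hz]
        simp only [hk]
        by_cases h6 : z ∈ A
        · have h7 : z + v ∉ B := fun h => hz ⟨h6, h⟩
          rw [indicator_of_notMem h7, zero_mul, mul_zero]
        · rw [indicator_of_notMem h6, zero_mul]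
    rw [e2]
    by_cases hv : v ∈ closedBall (0 : V) (2 * r)
    · rw [indicator_of_mem hv]
      refine (shift_le hΩ hf hF hw (convex_closedBall c r) hQm hQΩ hDm v
        fun z hz => ⟨hAQ hz.1, hBQ hz.2⟩).trans ?_
      refine mul_le_mul_left ?_ _
      rw [mem_closedBall_zero_iff] at hv
      rw [← ofReal_norm]
      exact ENNReal.ofReal_le_ofReal hv
    · have hDe : D = ∅ := by
        refine eq_empty_of_forall_notMem fun z hz => hv ?_
        have h8 := mem_closedBall.1 (hAQ hz.1)
        have h9 := mem_closedBall.1 (hBQ hz.2)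
        rw [mem_closedBall_zero_iff]
        have h10 : ‖v‖ = dist (z + v) z := by rw [dist_eq_norm, add_sub_cancel_left]
        rw [h10]
        calc dist (z + v) z ≤ dist (z + v) c + dist z c := dist_triangle_right _ _ _
          _ ≤ r + r := add_le_add h9 h8
          _ = 2 * r := by ring
      rw [hDe, Measure.restrict_empty, lintegral_zero_measure]
      exact zero_le
  refine (lintegral_mono h5).trans ?_
  rw [lintegral_indicator measurableSet_closedBall, setLIntegral_const, mul_comm]

end Vale.Agent.P073.H705.Mor
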