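import Vale.Agent.P073.H705.Sqz1
import Vale.Agent.P073.SQ.RadDiffeo
import Vale.Agent.P073.H655.RowsT

/-!
# P073: the squeezing diffeomorphisms of a cube (row S of helper655)
-/

namespace Vale.Agent.P073.H705

open MeasureTheory Set Filter Topology Metric
open Vale.Agent.P073.St (V)
open Vale.Agent.P073.SQ (ev SuppDiffeo)
open Vale.Agent.P073.H655 (ocube)
open scoped ContDiff ENNReal

theorem suppDiffeo_comp {K : Set V} {s t : V → V} (hs : SuppDiffeo K s) (ht : SuppDiffeo K t) :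
    SuppDiffeo K (s ∘ t) := by
  obtain ⟨s', h1, h2, h3⟩ := hs.inv
  obtain ⟨t', k1, k2, k3⟩ := ht.inv
  refine ⟨hs.compact, hs.smooth.comp ht.smooth, ⟨t' ∘ s', k1.comp h1, ?_, ?_⟩, ?_⟩
  · intro x
    simp only [Function.comp_apply]
    rw [h2, k2]
  · intro x
    simp only [Function.comp_apply]
    rw [k3, h3]
  · intro x hx
    simp only [Function.comp_apply]
    rw [ht.supp x hx, hs.supp x hx]

/-- the shear in the direction `i` -/
noncomputable def shear (i : Fin 3) (g : V → ℝ) (y : V) : V := y + g y • ev i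

theorem ev_self (i : Fin 3) : ev i i = 1 := by simp [ev]

theorem ev_ne {i l : Fin 3} (h : l ≠ i) : ev i l = 0 := by simp [ev, h]

theorem norm_ev (i : Fin 3) : ‖ev i‖ = 1 := by
  refine le_antisymm ((pi_norm_le_iff_of_nonneg zero_le_one).2 fun l => ?_) ?_
  · by_cases h : l = i
    · subst h; rw [ev_self]; simp
    · rw [ev_ne h]; simp
  · have := norm_le_pi_norm (ev i) i
    rwa [ev_self, norm_one] at this

theorem shear_self (i : Fin 3) (g : V → ℝ) (y : V) : shear i g y i = y i + g y := by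
  simp [shear, ev_self]

theorem shear_ne {i l : Fin 3} (h : l ≠ i) (g : V → ℝ) (y : V) : shear i g y l = y l := by
  simp [shear, ev_ne h]

theorem norm_shear_sub (i : Fin 3) (g : V → ℝ) (y : V) : ‖shear i g y - y‖ = |g y| := by
  simp [shear, norm_smul, norm_ev]

theorem contDiff_shear (i : Fin 3) {g : V → ℝ} (hg : ContDiff ℝ ∞ g) :
    ContDiff ℝ ∞ (shear i g) :=
  contDiff_id.add (hg.smul contDiff_const)

theorem hasFDerivAt_shear (i : Fin 3) {g : V → ℝ} {g' : V →L[ℝ] ℝ} {y : V}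
    (hg : HasFDerivAt g g' y) :
    HasFDerivAt (shear i g) (ContinuousLinearMap.id ℝ V + g'.smulRight (ev i)) y :=
  (hasFDerivAt_id y).add (hg.smul_const (ev i))

theorem suppDiffeo_shear {K : Set V} (hK : IsCompact K) (i : Fin 3) {g : V → ℝ}
    (hg : ContDiff ℝ ∞ g) (hoff : ∀ y, y ∉ K → g y = 0)
    (hpos : ∀ y, 0 < 1 + fderiv ℝ g y (ev i)) : SuppDiffeo K (shear i g) := by
  have hgd : ∀ y, HasFDerivAt g (fderiv ℝ g y) y := fun y =>
    (hg.differentiable (by simp) y).hasFDerivAt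
  refine SuppDiffeo.of_injective hK (contDiff_shear i hg) ?_ ?_ ?_
  · intro y y' h
    have hne : ∀ l, l ≠ i → y l = y' l := by
      intro l hl
      have := congrFun h l
      rwa [shear_ne hl, shear_ne hl] at this
    have hy' : y' = y + (y' i - y i) • ev i := by
      funext l
      by_cases hl : l = i
      · subst hl; simp [ev_self]
      · simp [ev_ne hl, hne l hl]
    have hmono : StrictMono fun s : ℝ => s + g (y + s • ev i) := by
      refine strictMono_of_deriv_pos fun s => ?_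
      have h1 : HasDerivAt (fun s : ℝ => y + s • ev i) (ev i) s := by
        simpa using ((hasDerivAt_id s).smul_const (ev i)).const_add y
      have h2 := (hgd (y + s • ev i)).comp_hasDerivAt s h1
      have h3 := ((hasDerivAt_id s).add h2).deriv
      have h4 : deriv (fun s : ℝ => s + g (y + s • ev i)) s =
        1 + fderiv ℝ g (y + s • ev i) (ev i) := h3
      rw [h4]
      exact hpos _
    have hi := congrFun h i
    rw [shear_self, shear_self] at hi
    have h5 : (fun s : ℝ => s + g (y + s • ev i)) 0 =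
        (fun s : ℝ => s + g (y + s • ev i)) (y' i - y i) := by
      simp only [zero_smul, add_zero, zero_add]
      rw [← hy']
      linarith
    have h6 := hmono.injective h5
    rw [hy', ← h6]
    simp
  · intro y v hv
    rw [(hasFDerivAt_shear i (hgd y)).fderiv] at hv
    simp only [add_apply, ContinuousLinearMap.coe_id', id_eq,
      ContinuousLinearMap.smulRight_apply] at hv
    have h1 : v = (-(fderiv ℝ g y v)) • ev i := by
      rw [neg_smul]; exact eq_neg_of_add_eq_zero_left hv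
    have h2 : fderiv ℝ g y v = -(fderiv ℝ g y v) * fderiv ℝ g y (ev i) := by
      conv_lhs => rw [h1]
      rw [map_smul, smul_eq_mul]
    have h3 : fderiv ℝ g y v * (1 + fderiv ℝ g y (ev i)) = 0 := by linarith
    have h4 : fderiv ℝ g y v = 0 := by
      rcases mul_eq_zero.1 h3 with h | h
      · exact h
      · exact absurd h (hpos y).ne'
    rw [h1, h4]
    simp
  · intro y hy
    rw [shear, hoff y hy, zero_smul, add_zero]

/-- the cut off profile -/
noncomputable def gg (i j k : Fin 3) (σ χ : ℝ → ℝ) (c : V) (y : V) : ℝ :=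
  σ (y i) * (χ (y j - c j) * χ (y k - c k))

/-- its derivative -/
noncomputable def gg' (i j k : Fin 3) (σ χ : ℝ → ℝ) (c : V) (y : V) : V →L[ℝ] ℝ :=
  σ (y i) • (χ (y j - c j) • (deriv χ (y k - c k) • ContinuousLinearMap.proj k) +
    χ (y k - c k) • (deriv χ (y j - c j) • ContinuousLinearMap.proj j)) +
    (χ (y j - c j) * χ (y k - c k)) • (deriv σ (y i) • ContinuousLinearMap.proj i)

theorem hasFDerivAt_coord {χ : ℝ → ℝ} (hχ : ContDiff ℝ ∞ χ) (j : Fin 3) (b : ℝ) (y : V) :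
    HasFDerivAt (fun y : V => χ (y j - b))
      (deriv χ (y j - b) • (ContinuousLinearMap.proj j : V →L[ℝ] ℝ)) y := by
  have h1 : HasFDerivAt (fun y : V => y j - b) (ContinuousLinearMap.proj j : V →L[ℝ] ℝ) y :=
    (ContinuousLinearMap.proj (R := ℝ) (φ := fun _ : Fin 3 => ℝ) j).hasFDerivAt.sub_const b
  have h2 : HasDerivAt χ (deriv χ (y j - b)) (y j - b) :=
    (hχ.differentiable (by simp) _).hasDerivAt
  exact h2.comp_hasFDerivAt y h1

theorem hasFDerivAt_gg (i j k : Fin 3) {σ χ : ℝ → ℝ} (hσ : ContDiff ℝ ∞ σ) (hχ : ContDiff ℝ ∞ χ)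
    (c y : V) : HasFDerivAt (gg i j k σ χ c) (gg' i j k σ χ c y) y := by
  have h1 : HasFDerivAt (fun y : V => σ (y i))
      (deriv σ (y i) • (ContinuousLinearMap.proj i : V →L[ℝ] ℝ)) y := by
    simpa using hasFDerivAt_coord hσ i 0 y
  exact h1.mul ((hasFDerivAt_coord hχ j (c j) y).mul (hasFDerivAt_coord hχ k (c k) y))

theorem contDiff_gg (i j k : Fin 3) {σ χ : ℝ → ℝ} (hσ : ContDiff ℝ ∞ σ) (hχ : ContDiff ℝ ∞ χ)
    (c : V) : ContDiff ℝ ∞ (gg i j k σ χ c) := by
  unfold gg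
  have h1 : ∀ l : Fin 3, ContDiff ℝ ∞ fun y : V => y l := fun l => contDiff_apply ℝ ℝ l
  exact (hσ.comp (h1 i)).mul ((hχ.comp ((h1 j).sub contDiff_const)).mul
    (hχ.comp ((h1 k).sub contDiff_const)))

theorem norm_proj_le (l : Fin 3) : ‖(ContinuousLinearMap.proj l : V →L[ℝ] ℝ)‖ ≤ 1 :=
  ContinuousLinearMap.opNorm_le_bound _ zero_le_one fun y => by
    rw [one_mul]; exact norm_le_pi_norm y l

section

variable {i j k : Fin 3} {σ χ : ℝ → ℝ} {c : V} {δ B : ℝ}

theorem norm_gg'_le (hχ0 : ∀ t, 0 ≤ χ t) (hχ1 : ∀ t, χ t ≤ 1) (hB : ∀ t, |deriv χ t| ≤ B)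
    (hσ : ∀ t, |σ t| ≤ δ) (y : V) :
    ‖gg' i j k σ χ c y‖ ≤ 2 * (δ * B) + |deriv σ (y i)| := by
  have hδ : 0 ≤ δ := (abs_nonneg _).trans (hσ 0)
  have hB0 : 0 ≤ B := (abs_nonneg _).trans (hB 0)
  have key : ∀ (a b : ℝ) (l : Fin 3) (M : ℝ), |a| ≤ 1 → |b| ≤ M →
      ‖a • (b • (ContinuousLinearMap.proj l : V →L[ℝ] ℝ))‖ ≤ M := by
    intro a b l M ha hb
    rw [norm_smul, norm_smul, Real.norm_eq_abs, Real.norm_eq_abs]
    calc |a| * (|b| * ‖(ContinuousLinearMap.proj l : V →L[ℝ] ℝ)‖) ≤ 1 * (M * 1) := by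
          have := norm_proj_le l
          have hM : 0 ≤ M := (abs_nonneg _).trans hb
          gcongr
      _ = M := by ring
  have hχa : ∀ t, |χ t| ≤ 1 := fun t => by rw [abs_of_nonneg (hχ0 t)]; exact hχ1 t
  refine (norm_add_le _ _).trans (add_le_add ?_ ?_)
  · rw [norm_smul, Real.norm_eq_abs]
    calc |σ (y i)| * ‖χ (y j - c j) • (deriv χ (y k - c k) •
          (ContinuousLinearMap.proj k : V →L[ℝ] ℝ)) +
          χ (y k - c k) • (deriv χ (y j - c j) • (ContinuousLinearMap.proj j : V →L[ℝ] ℝ))‖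
        ≤ δ * (B + B) := by
          refine mul_le_mul (hσ _) ((norm_add_le _ _).trans (add_le_add ?_ ?_)) (norm_nonneg _) hδ
          · exact key _ _ _ _ (hχa _) (hB _)
          · exact key _ _ _ _ (hχa _) (hB _)
      _ = 2 * (δ * B) := by ring
  · refine key _ _ _ _ ?_ le_rfl
    rw [abs_mul]
    exact mul_le_one₀ (hχa _) (abs_nonneg _) (hχa _)

theorem gg'_ev (hji : j ≠ i) (hki : k ≠ i) (y : V) :
    gg' i j k σ χ c y (ev i) = (χ (y j - c j) * χ (y k - c k)) * deriv σ (y i) := by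
  simp [gg', ev_self, ev_ne hji, ev_ne hki]

theorem abs_gg_le (hχ0 : ∀ t, 0 ≤ χ t) (hχ1 : ∀ t, χ t ≤ 1) (hσ : ∀ t, |σ t| ≤ δ) (y : V) :
    |gg i j k σ χ c y| ≤ δ := by
  have hδ : 0 ≤ δ := (abs_nonneg _).trans (hσ 0)
  unfold gg
  rw [abs_mul, abs_mul, abs_of_nonneg (hχ0 (y j - c j)), abs_of_nonneg (hχ0 (y k - c k))]
  calc |σ (y i)| * (χ (y j - c j) * χ (y k - c k)) ≤ δ * (1 * 1) := by
        have h1 := hχ0 (y j - c j)
        have h2 := hχ0 (y k - c k)
        have h3 := hχ1 (y j - c j)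
        have h4 := hχ1 (y k - c k)
        have h5 := hσ (y i)
        gcongr
    _ = δ := by ring

theorem gg'_eq {ε R : ℝ} (hχR : ∀ t, |t| < R → χ t = 1) {y : V} (hj : |y j - c j| < R)
    (hk : |y k - c k| < R) (hi : deriv σ (y i) = ε - 1) :
    gg' i j k σ χ c y = (ε - 1) • ContinuousLinearMap.proj i := by
  have h0 : ∀ t, |t| < R → deriv χ t = 0 := by
    intro t ht
    have h1 : χ =ᶠ[𝓝 t] fun _ => (1 : ℝ) := by
      filter_upwards [(isOpen_lt continuous_abs continuous_const).mem_nhds ht] with u hu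
      exact hχR u hu
    rw [h1.deriv_eq, deriv_const]
  unfold gg'
  rw [h0 _ hj, h0 _ hk, hχR _ hj, hχR _ hk, hi]
  simp

end

end Vale.Agent.P073.H705
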