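import Mathlib

/-!
# P073: squeezers in one variable (for row S of helper655)
-/

namespace Vale.Agent.P073.H705

open MeasureTheory Set Filter Topology Metric
open scoped ContDiff Manifold ENNReal

/-- a normalised bump off a compact null set -/
theorem exists_beta {a b : ℝ} (hab : a < b) {A : Set ℝ} (hA : IsCompact A) (hA0 : volume A = 0) :
    ∃ (β : ℝ → ℝ) (S : Set ℝ), IsClosed S ∧ S ⊆ Ioo a b ∧ Disjoint S A ∧ ContDiff ℝ ∞ β ∧
      (∀ t, 0 ≤ β t) ∧ (∀ t, t ∉ S → β t = 0) ∧ Integrable β ∧ ∫ t, β t = 1 := by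
  have h1 : (Ioo a b \ A).Nonempty := by
    rw [nonempty_iff_ne_empty]
    intro h
    have h2 : Ioo a b ⊆ A := sdiff_eq_empty.1 h
    have h3 : volume (Ioo a b) ≤ 0 := (measure_mono h2).trans hA0.le
    rw [Real.volume_Ioo, nonpos_iff_eq_zero, ENNReal.ofReal_eq_zero] at h3
    linarith
  obtain ⟨t0, ht0⟩ := h1
  have hop : IsOpen (Ioo a b \ A) := isOpen_Ioo.sdiff hA.isClosed
  obtain ⟨r, hr, hball⟩ := Metric.isOpen_iff.1 hop t0 ht0
  let f : ContDiffBump t0 := ⟨r / 4, r / 2, by positivity, by linarith⟩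
  refine ⟨f.normed volume, closedBall t0 (r / 2), isClosed_closedBall, ?_, ?_,
    f.contDiff_normed, f.nonneg_normed, ?_, f.integrable_normed, f.integral_normed⟩
  · exact fun t ht => (hball (closedBall_subset_ball (by linarith) ht)).1
  · exact Set.disjoint_left.2 fun t ht => (hball (closedBall_subset_ball (by linarith) ht)).2
  · intro t ht
    have h2 : t ∉ Function.support (f.normed volume) := by
      rw [f.support_normed_eq]
      exact fun h => ht (ball_subset_closedBall h)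
    exact Function.notMem_support.1 h2

/-- a smooth function of small integral which is `1` near a compact null set -/
theorem exists_theta {A W : Set ℝ} (hA : IsCompact A) (hA0 : volume A = 0) (hW : IsOpen W)
    (hAW : A ⊆ W) {m : ℝ} (hm : 0 < m) :
    ∃ (θ : ℝ → ℝ) (U : Set ℝ), IsOpen U ∧ A ⊆ U ∧ U ⊆ W ∧ ContDiff ℝ ∞ θ ∧ (∀ t, 0 ≤ θ t) ∧
      (∀ t, θ t ≤ 1) ∧ (∀ t ∈ U, θ t = 1) ∧ (∀ t, t ∉ W → θ t = 0) ∧
      Integrable θ ∧ ∫ t, θ t ≤ m := by
  obtain ⟨O, hAO, hO, hOm⟩ := A.exists_isOpen_lt_of_lt (ENNReal.ofReal m)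
    (by rw [hA0]; exact ENNReal.ofReal_pos.2 hm)
  have hd : Disjoint (O ∩ W)ᶜ A := by
    rw [disjoint_compl_left_iff_subset]
    exact subset_inter hAO hAW
  obtain ⟨f, hf0, hf1, hf⟩ := exists_contMDiffMap_zero_one_nhds_of_isClosed 𝓘(ℝ, ℝ)
    (n := (⊤ : ℕ∞)) (hO.inter hW).isClosed_compl hA.isClosed hd
  have hz : ∀ t, t ∉ O ∩ W → f t = 0 := fun t ht => hf0.self_of_nhdsSet t ht
  obtain ⟨U, hU, hAU, hU1⟩ := eventually_nhdsSet_iff_exists.1 hf1
  have hUW : U ⊆ O ∩ W := by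
    intro t ht
    by_contra hcon
    have h1 := hz t hcon
    rw [hU1 t ht] at h1
    exact one_ne_zero h1
  have hc : ContDiff ℝ ∞ f := f.contMDiff.contDiff
  have hind : ∀ t, f t ≤ (O ∩ W).indicator (fun _ => (1 : ℝ)) t := by
    intro t
    by_cases ht : t ∈ O ∩ W
    · rw [indicator_of_mem ht]; exact (hf t).2
    · rw [indicator_of_notMem ht, hz t ht]
  have hvol : volume (O ∩ W) < ENNReal.ofReal m := (measure_mono inter_subset_left).trans_lt hOm
  have hint1 : Integrable ((O ∩ W).indicator (fun _ => (1 : ℝ))) :=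
    (integrable_indicator_iff (hO.inter hW).measurableSet).2
      (integrableOn_const (hvol.trans ENNReal.ofReal_lt_top).ne)
  have hint : Integrable f := by
    refine hint1.mono' hc.continuous.aestronglyMeasurable (Eventually.of_forall fun t => ?_)
    rw [Real.norm_eq_abs, abs_of_nonneg (hf t).1]
    exact hind t
  refine ⟨f, U, hU, hAU, fun t ht => (hUW ht).2, hc, fun t => (hf t).1, fun t => (hf t).2,
    hU1, fun t ht => hz t fun h => ht h.2, hint, ?_⟩
  calc ∫ t, f t ≤ ∫ t, (O ∩ W).indicator (fun _ => (1 : ℝ)) t := integral_mono hint hint1 hind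
    _ = volume.real (O ∩ W) := by
        rw [integral_indicator (hO.inter hW).measurableSet]
        simp
    _ ≤ m := by
        rw [Measure.real]
        exact ENNReal.toReal_le_of_le_ofReal hm.le hvol.le

theorem integral_Icc_le {g : ℝ → ℝ} (hg : ∀ t, 0 ≤ g t) (hi : Integrable g) {a t : ℝ}
    (hat : a ≤ t) : 0 ≤ ∫ x in a..t, g x ∧ ∫ x in a..t, g x ≤ ∫ x, g x := by
  rw [intervalIntegral.integral_of_le hat]
  exact ⟨integral_nonneg fun x => hg x, setIntegral_le_integral hi (Eventually.of_forall hg)⟩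

theorem integral_left {g : ℝ → ℝ} {a b : ℝ} (hg : ∀ t, t ∉ Ioo a b → g t = 0) {t : ℝ}
    (ht : t ≤ a) : ∫ x in a..t, g x = 0 := by
  rw [intervalIntegral.integral_congr (g := fun _ => 0)]
  · simp
  · intro x hx
    rw [uIcc_of_ge ht] at hx
    exact hg x fun h => absurd h.1 (not_lt.2 hx.2)

theorem integral_right {g : ℝ → ℝ} {a b : ℝ} (hg : ∀ t, t ∉ Ioo a b → g t = 0) {t : ℝ}
    (hab : a < b) (ht : b ≤ t) : ∫ x in a..t, g x = ∫ x, g x := by
  rw [intervalIntegral.integral_of_le (hab.le.trans ht),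
    setIntegral_eq_integral_of_forall_compl_eq_zero]
  intro x hx
  refine hg x fun h => hx ⟨h.1, (h.2.le.trans ht)⟩

/-- **the squeezers of an interval** -/
theorem squeeze1 {a b : ℝ} (hab : a < b) {A : Set ℝ} (hA : IsCompact A) (hAab : A ⊆ Ioo a b)
    (hA0 : volume A = 0) {κ δ : ℝ} (hκ : 0 < κ) (hδ : 0 < δ) :
    ∃ U : Set ℝ, IsOpen U ∧ A ⊆ U ∧ U ⊆ Ioo a b ∧ (∀ t ∈ U, ∃ z ∈ A, |t - z| < κ) ∧
      ∀ ε : ℝ, 0 < ε → ε ≤ 1 → ∃ σ : ℝ → ℝ, ContDiff ℝ ∞ σ ∧ (∀ t, t ∉ Ioo a b → σ t = 0) ∧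
        (∀ t, |σ t| ≤ δ) ∧ (∀ t, ε - 1 ≤ deriv σ t) ∧ (∀ t, deriv σ t ≤ δ) ∧
        (∀ t ∈ U, deriv σ t = ε - 1) ∧
        (∀ t, (∀ z ∈ A, κ ≤ |t - z|) → |deriv σ t| ≤ δ) := by
  obtain ⟨β, S, hS, hSab, hSA, hβ, hβ0, hβS, hβi, hβ1⟩ := exists_beta hab hA hA0
  have hβab : ∀ t, t ∉ Ioo a b → β t = 0 := fun t ht => hβS t fun h => ht (hSab h)
  have hβc : HasCompactSupport β := by
    refine HasCompactSupport.of_support_subset_isCompact (K := Icc a b) isCompact_Icc ?_
    intro t ht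
    by_contra h
    exact ht (hβab t fun h' => h ⟨h'.1.le, h'.2.le⟩)
  obtain ⟨M, hM⟩ := hβ.continuous.bounded_above_of_compact_support hβc
  have hM0 : 0 ≤ M := (norm_nonneg _).trans (hM 0)
  have hMβ : ∀ t, β t ≤ M := fun t => (le_abs_self _).trans (hM t)
  set m := min δ (δ / (M + 1)) with hm
  have hmpos : 0 < m := lt_min hδ (by positivity)
  have hmM : m * M ≤ δ := by
    calc m * M ≤ δ / (M + 1) * (M + 1) := by
          gcongr
          · exact min_le_right _ _
          · linarith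
      _ = δ := by field_simp
  set W := Ioo a b ∩ thickening κ A ∩ Sᶜ with hW
  have hWo : IsOpen W := (isOpen_Ioo.inter isOpen_thickening).inter hS.isOpen_compl
  have hAW : A ⊆ W := fun t ht =>
    ⟨⟨hAab ht, self_subset_thickening hκ A ht⟩, fun h => Set.disjoint_left.1 hSA h ht⟩
  obtain ⟨θ, U, hU, hAU, hUW, hθ, hθ0, hθ1, hθU, hθW, hθi, hθm⟩ :=
    exists_theta hA hA0 hWo hAW hmpos
  have hθab : ∀ t, t ∉ Ioo a b → θ t = 0 := fun t ht => hθW t fun h => ht h.1.1
  set I := ∫ t, θ t with hI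
  have hI0 : 0 ≤ I := integral_nonneg hθ0
  have hIδ : I ≤ δ := hθm.trans (min_le_left _ _)
  have hIβ : ∀ t, I * β t ≤ δ := fun t =>
    (mul_le_mul hθm (hMβ t) (hβ0 t) hmpos.le).trans hmM
  refine ⟨U, hU, hAU, fun t ht => (hUW ht).1.1, ?_, ?_⟩
  · intro t ht
    obtain ⟨z, hz, hzt⟩ := mem_thickening_iff.1 (hUW ht).1.2
    exact ⟨z, hz, by rwa [Real.dist_eq] at hzt⟩
  intro ε hε hε1
  set h : ℝ → ℝ := fun t => (1 - ε) * (I * β t - θ t) with hh
  have hhs : ContDiff ℝ ∞ h := contDiff_const.mul ((contDiff_const.mul hβ).sub hθ)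
  have hd : ∀ t, HasDerivAt (fun t => ∫ x in a..t, h x) (h t) t := fun t =>
    (hhs.continuous.integral_hasStrictDerivAt a t).hasDerivAt
  have hderiv : deriv (fun t => ∫ x in a..t, h x) = h := funext fun t => (hd t).deriv
  have hval : ∀ t, ∫ x in a..t, h x =
      (1 - ε) * (I * (∫ x in a..t, β x) - ∫ x in a..t, θ x) := by
    intro t
    simp only [hh]
    rw [intervalIntegral.integral_const_mul, intervalIntegral.integral_sub,
      intervalIntegral.integral_const_mul]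
    · exact (hβi.intervalIntegrable).const_mul I
    · exact hθi.intervalIntegrable
  have hoff : ∀ t, t ∉ Ioo a b → ∫ x in a..t, h x = 0 := by
    intro t ht
    rw [hval]
    rcases le_or_gt t a with h1 | h1
    · rw [integral_left hβab h1, integral_left hθab h1]; ring
    · have h2 : b ≤ t := by
        by_contra h3
        exact ht ⟨h1, not_le.1 h3⟩
      rw [integral_right hβab hab h2, integral_right hθab hab h2, hβ1, ← hI]; ring
  refine ⟨fun t => ∫ x in a..t, h x, ?_, hoff, ?_, ?_, ?_, ?_, ?_⟩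
  · rw [contDiff_infty_iff_deriv, hderiv]
    exact ⟨fun t => (hd t).differentiableAt, hhs⟩
  · intro t
    show |∫ x in a..t, h x| ≤ δ
    by_cases ht : t ∈ Ioo a b
    · rw [hval]
      obtain ⟨b1, b2⟩ := integral_Icc_le hβ0 hβi ht.1.le
      obtain ⟨c1, c2⟩ := integral_Icc_le hθ0 hθi ht.1.le
      rw [hβ1] at b2
      rw [← hI] at c2
      have h1 : |I * (∫ x in a..t, β x) - ∫ x in a..t, θ x| ≤ I := by
        rw [abs_le]
        constructor
        · nlinarith
        · nlinarith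
      rw [abs_mul, abs_of_nonneg (by linarith)]
      calc (1 - ε) * |I * (∫ x in a..t, β x) - ∫ x in a..t, θ x| ≤ 1 * I := by
            gcongr
            linarith
        _ ≤ δ := by rw [one_mul]; exact hIδ
    · rw [hoff t ht, abs_zero]; exact hδ.le
  · intro t
    rw [hderiv]
    simp only [hh]
    have h1 := mul_nonneg hI0 (hβ0 t)
    have h2 := hθ1 t
    nlinarith
  · intro t
    rw [hderiv]
    simp only [hh]
    have h1 := mul_nonneg hI0 (hβ0 t)
    have h2 := hIβ t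
    have h3 := hθ0 t
    nlinarith
  · intro t ht
    rw [hderiv]
    simp only [hh]
    rw [hθU t ht, hβS t (hUW ht).2]
    ring
  · intro t ht
    rw [hderiv]
    simp only [hh]
    have h0 : θ t = 0 := by
      refine hθW t fun hW' => ?_
      obtain ⟨z, hz, hzt⟩ := mem_thickening_iff.1 hW'.1.2
      rw [Real.dist_eq] at hzt
      exact absurd (ht z hz) (not_le.2 hzt)
    have h1 := mul_nonneg hI0 (hβ0 t)
    have h2 := hIβ t
    rw [h0, sub_zero, abs_of_nonneg (mul_nonneg (by linarith) h1)]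
    nlinarith

end Vale.Agent.P073.H705
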